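import Crest.Agent.R271.T1.Defs

/-! # Row 271, T1: algebra of standard étale presentations -/

set_option autoImplicit false
set_option linter.unusedSectionVars false
set_option linter.unusedVariables false

open MeasureTheory Filter Topology Set Polynomial
open scoped ENNReal

noncomputable section

namespace Crest.Agent.R271.T1

variable {n : ℕ}

section ev2
variable {S S' : Type} [CommRing S] [Algebra ℂ S] [CommRing S'] [Algebra ℂ S'] (x : Fin n → S) (u : S)

@[simp] theorem ev2_C (b : B n) : ev2 x u (C b) = MvPolynomial.aeval x b := by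
  simp [ev2]

@[simp] theorem ev2_X : ev2 x u X = u := by
  simp [ev2]

theorem map_ev2 (f : S →ₐ[ℂ] S') (a : (B n)[X]) : f (ev2 x u a) = ev2 (fun i => f (x i)) (f u) a := by
  induction a using Polynomial.induction_on' with
  | add p q hp hq => simp only [map_add, hp, hq]
  | monomial k b =>
    rw [← C_mul_X_pow_eq_monomial]
    simp only [map_mul, map_pow, ev2_C, ev2_X]
    rw [← AlgHom.comp_apply, MvPolynomial.comp_aeval]

theorem ev2_eq_eval (v : E n) (t : ℂ) (a : (B n)[X]) : ev2 v t a = (a.map (MvPolynomial.eval v)).eval t := by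
  rw [eval_map]
  rfl

theorem ev2_analytic (a : (B n)[X]) (q : E n × ℂ) : AnalyticAt ℂ (fun q : E n × ℂ => ev2 q.1 q.2 a) q := by
  induction a using Polynomial.induction_on' with
  | add p q hp hq => simpa only [map_add] using hp.fun_add hq
  | monomial k b =>
    rw [← C_mul_X_pow_eq_monomial]
    simp only [map_mul, map_pow, ev2_C, ev2_X]
    refine AnalyticAt.fun_mul ?_ (analyticAt_snd.fun_pow k)
    exact AnalyticAt.aeval_mvPolynomial (f := fun q : E n × ℂ => q.1)
      (fun i => ((ContinuousLinearMap.proj i : E n →L[ℂ] ℂ).analyticAt _).comp analyticAt_fst) b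

end ev2

namespace SE
variable {A : Type} [CommRing A] [IsDomain A] [Algebra ℂ A] (S : SE n A)

/-- `Algebra.adjoin_induction` -/
theorem surj (a : A) : ∃ (b : (B n)[X]) (m : ℕ), a = ev2 S.z S.U b * S.v ^ m := by
  have ha : a ∈ Algebra.adjoin ℂ (insert S.v (insert S.U (range S.z))) := by rw [S.gen]; trivial
  have key : ∀ (b : (B n)[X]) (m k : ℕ), ev2 S.z S.U b * S.v ^ m = ev2 S.z S.U (b * S.G ^ k) * S.v ^ (m + k) := by
    intro b m k
    have : (S.v * ev2 S.z S.U S.G) ^ k = 1 := by rw [S.vG, one_pow]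
    rw [map_mul, map_pow]
    linear_combination (-ev2 S.z S.U b * S.v ^ m) * this
  induction ha using Algebra.adjoin_induction with
  | mem x hx =>
    rcases hx with rfl | rfl | ⟨i, rfl⟩
    · exact ⟨1, 1, by simp⟩
    · exact ⟨X, 0, by simp⟩
    · exact ⟨C (MvPolynomial.X i), 0, by simp⟩
  | algebraMap r => exact ⟨C (MvPolynomial.C r), 0, by simp⟩
  | add x y _ _ hx hy =>
    obtain ⟨b, m, rfl⟩ := hx
    obtain ⟨b', m', rfl⟩ := hy
    refine ⟨b * S.G ^ m' + b' * S.G ^ m, m + m', ?_⟩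
    rw [key b m m', key b' m' m, map_add, add_mul, add_comm m' m]
  | mul x y _ _ hx hy =>
    obtain ⟨b, m, rfl⟩ := hx
    obtain ⟨b', m', rfl⟩ := hy
    exact ⟨b * b', m + m', by rw [map_mul, pow_add]; ring⟩

theorem cond : ∃ (p₁ p₂ : (B n)[X]) (m : ℕ), derivative S.Q * p₁ + S.Q * p₂ = S.G ^ m := by
  obtain ⟨u, hu⟩ := S.sep.exists_right_inv
  obtain ⟨b, m, rfl⟩ := S.surj u
  have h1 : (S.v * ev2 S.z S.U S.G) ^ m = 1 := by rw [S.vG, one_pow]
  obtain ⟨c, hc⟩ := S.ker (S.G ^ m - derivative S.Q * b) (by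
    rw [map_sub, map_pow, map_mul]
    linear_combination (ev2 S.z S.U (derivative S.Q) * ev2 S.z S.U b) * h1 - ev2 S.z S.U S.G ^ m * hu)
  exact ⟨b, c, m, by linear_combination -hc⟩

theorem z_inj {b : B n} (h : MvPolynomial.aeval S.z b = 0) : b = 0 := by
  by_contra hb
  have h1 := S.ker (C b) (by simpa using h)
  have h2 : S.Q.natDegree = 0 := by
    have := natDegree_le_of_dvd h1 (C_ne_zero.2 hb)
    simpa using this
  have h3 := S.root
  rw [S.monic.natDegree_eq_zero.1 h2, map_one] at h3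
  exact one_ne_zero h3

/-- `g = G (z, U) ≠ 0` is integral over `B n` (algebra structure `(aeval z).toAlgebra`), so `f g = 0` for some `f` with
`f.coeff 0 ≠ 0`; `h = f.coeff 0` -/
theorem exists_h : ∃ (h : B n) (a b : (B n)[X]), h ≠ 0 ∧ C h = S.G * a + S.Q * b := by
  letI := (MvPolynomial.aeval S.z : B n →ₐ[ℂ] A).toRingHom.toAlgebra
  have e : ∀ a : (B n)[X], aeval S.U a = ev2 S.z S.U a := fun a => rfl
  have hU : IsIntegral (B n) S.U := ⟨S.Q, S.monic, S.root⟩
  have hg : IsIntegral (B n) (aeval S.U S.G) :=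
    (adjoin_le_integralClosure hU) (Polynomial.aeval_mem_adjoin_singleton _ _)
  have hg0 : aeval S.U S.G ≠ 0 := fun h => by
    have := S.vG
    rw [← e, h, mul_zero] at this
    exact zero_ne_one this
  obtain ⟨q, hq, hq0⟩ := hg.isAlgebraic.exists_nonzero_coeff_and_aeval_eq_zero (mem_nonZeroDivisors_of_ne_zero hg0)
  obtain ⟨c, hc⟩ := S.ker (q.comp S.G) (by rw [← e, aeval_comp, hq0])
  refine ⟨q.coeff 0, -(divX q).comp S.G, c, hq, ?_⟩
  have h1 := congrArg (fun r : (B n)[X] => r.comp S.G) (divX_mul_X_add q)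
  simp only [add_comp, mul_comp, X_comp, C_comp] at h1
  linear_combination h1 + hc

/-- the presentation in Mathlib's form -/
theorem exists_pres : letI := (MvPolynomial.aeval S.z : B n →ₐ[ℂ] A).toRingHom.toAlgebra
    ∃ P : StandardEtalePresentation (B n) A, P.f = S.Q ∧ P.g = S.G ∧ P.x = S.U := by
  letI := (MvPolynomial.aeval S.z : B n →ₐ[ℂ] A).toRingHom.toAlgebra
  have e : ∀ a : (B n)[X], aeval S.U a = ev2 S.z S.U a := fun a => rfl
  let P : StandardEtalePair (B n) := ⟨S.Q, S.monic, S.G, S.cond⟩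
  have hu : IsUnit (aeval S.U S.G) := IsUnit.of_mul_eq_one_right S.v S.vG
  have hm : P.HasMap S.U := ⟨S.root, hu⟩
  have h1 : ∀ a : (B n)[X], P.lift S.U hm (aeval P.X a) = ev2 S.z S.U a := fun a => by
    rw [← aeval_algHom_apply, P.lift_X, e]
  let P₀ : StandardEtalePresentation (B n) P.Ring :=
    ⟨P, P.X, P.hasMap_X, by simpa [StandardEtalePair.lift_X_left] using Function.bijective_id⟩
  refine ⟨⟨P, S.U, hm, ?_, ?_⟩, rfl, rfl, rfl⟩
  · rw [injective_iff_map_eq_zero]
    intro x hx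
    obtain ⟨p, m, hp⟩ := P₀.exists_mul_aeval_x_g_pow_eq_aeval_x x
    change x * aeval P.X P.g ^ m = aeval P.X p at hp
    have h2 := congrArg (P.lift S.U hm) hp
    rw [map_mul, hx, zero_mul, h1] at h2
    obtain ⟨c, rfl⟩ := S.ker p h2.symm
    rw [map_mul, show aeval P.X S.Q = 0 from P.hasMap_X.1, zero_mul] at hp
    exact (P.hasMap_X.2.pow m).mul_left_eq_zero.1 hp
  · intro a
    obtain ⟨b, m, rfl⟩ := S.surj a
    obtain ⟨w, hw⟩ := P.hasMap_X.2.exists_right_inv
    have h2 := congrArg (P.lift S.U hm) hw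
    rw [map_mul, h1, map_one] at h2
    have h3 : P.lift S.U hm w = S.v := by
      have := S.vG
      change ev2 S.z S.U S.G * _ = 1 at h2
      linear_combination S.v * h2 - P.lift S.U hm w * this
    exact ⟨aeval P.X b * w ^ m, by rw [map_mul, map_pow, h1, h3]⟩

theorem etale : (MvPolynomial.aeval S.z : B n →ₐ[ℂ] A).toRingHom.Etale := by
  letI := (MvPolynomial.aeval S.z : B n →ₐ[ℂ] A).toRingHom.toAlgebra
  obtain ⟨P, -⟩ := S.exists_pres
  haveI : Algebra.IsStandardEtale (B n) A := ⟨⟨P⟩⟩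
  exact (inferInstance : Algebra.Etale (B n) A)

theorem exists_lift (y : S.Pt) : ∃ f : A →ₐ[ℂ] ℂ, (∀ i, f (S.z i) = y.1.1 i) ∧ f S.U = y.1.2 := by
  letI := (MvPolynomial.aeval S.z : B n →ₐ[ℂ] A).toRingHom.toAlgebra
  letI := (MvPolynomial.aeval y.1.1 : B n →ₐ[ℂ] ℂ).toRingHom.toAlgebra
  obtain ⟨P, h1, h2, h3⟩ := S.exists_pres
  have hm : P.HasMap y.1.2 := ⟨by rw [h1]; exact y.2.1, by rw [h2]; exact y.2.2.isUnit⟩
  let f : A →ₐ[B n] ℂ := (P.lift y.1.2 hm).comp P.equivRing.toAlgHom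
  have hf : ∀ b : B n, f (MvPolynomial.aeval S.z b) = MvPolynomial.aeval y.1.1 b := fun b => f.commutes b
  refine ⟨{ toRingHom := f.toRingHom, commutes' := fun r => ?_ }, fun i => ?_, ?_⟩
  · simpa using hf (MvPolynomial.C r)
  · simpa using hf (MvPolynomial.X i)
  · rw [← h3]
    simp [f]

/-- evaluation at a point -/
def ev (y : S.Pt) : A →ₐ[ℂ] ℂ := (S.exists_lift y).choose

theorem ev_z (y : S.Pt) (i : Fin n) : S.ev y (S.z i) = S.p y i := (S.exists_lift y).choose_spec.1 i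

theorem ev_U (y : S.Pt) : S.ev y S.U = y.1.2 := (S.exists_lift y).choose_spec.2

theorem ev_ev2 (y : S.Pt) (a : (B n)[X]) : S.ev y (ev2 S.z S.U a) = ev2 y.1.1 y.1.2 a := by
  rw [map_ev2, S.ev_U]
  simp only [S.ev_z]
  rfl

theorem ev_aeval (y : S.Pt) (b : B n) : S.ev y (MvPolynomial.aeval S.z b) = MvPolynomial.eval (S.p y) b := by
  rw [← ev2_C S.z S.U, S.ev_ev2, ev2_C]
  rfl

theorem ev_v (y : S.Pt) : S.ev y S.v = (ev2 y.1.1 y.1.2 S.G)⁻¹ := by
  have := congrArg (S.ev y) S.vG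
  rw [map_mul, map_one, S.ev_ev2] at this
  exact eq_inv_of_mul_eq_one_left this

theorem ev_bij : Function.Bijective S.ev := by
  refine ⟨fun y y' h => Subtype.ext (Prod.ext (funext fun i => ?_) ?_), fun f => ?_⟩
  · exact (S.ev_z y i).symm.trans (h ▸ S.ev_z y' i)
  · exact (S.ev_U y).symm.trans (h ▸ S.ev_U y')
  · have h1 : f S.v * ev2 (fun i => f (S.z i)) (f S.U) S.G = 1 := by rw [← map_ev2, ← map_mul, S.vG, map_one]
    let y : S.Pt := ⟨(fun i => f (S.z i), f S.U), by rw [← map_ev2, S.root, map_zero], right_ne_zero_of_mul_eq_one h1⟩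
    refine ⟨y, AlgHom.ext fun a => ?_⟩
    obtain ⟨b, m, rfl⟩ := S.surj a
    rw [map_mul, map_mul, map_pow, map_pow, S.ev_ev2, S.ev_v, map_ev2, eq_inv_of_mul_eq_one_left h1]

theorem gen_w : Algebra.adjoin ℂ (range S.w) = ⊤ := by
  rw [w, Fin.range_cons, Fin.range_cons, S.gen]

theorem z_mem_w (i : Fin n) : S.z i ∈ range S.w := by
  exact ⟨i.succ.succ, rfl⟩

end SE

end Crest.Agent.R271.T1
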