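import Crest.Agent.R271.T1.Defs

/-! # Row 271, T1: traces in `R[X] / (Q)` -/

set_option autoImplicit false
set_option linter.unusedSectionVars false
set_option linter.unusedVariables false

open MeasureTheory Filter Topology Set Polynomial
open scoped ENNReal

noncomputable section

namespace Crest.Agent.R271.T1

/-- `Polynomial.map_modByMonic`, `Monic.natDegree_map` -/
theorem trQ_map {R R' : Type} [CommRing R] [CommRing R'] [Nontrivial R'] (ψ : R →+* R') {Q : R[X]} (hQ : Q.Monic)
    (a : R[X]) : trQ (Q.map ψ) (a.map ψ) = ψ (trQ Q a) := by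
  unfold trQ
  rw [hQ.natDegree_map, map_sum]
  refine Finset.sum_congr rfl fun i _ => ?_
  rw [← coeff_map, Polynomial.map_modByMonic ψ hQ, Polynomial.map_mul, Polynomial.map_pow, map_X]

/-- `Algebra.trace_eq_matrix_trace pb.basis`; `aeval gen b = ∑ (b %ₘ Q).coeff i • gen ^ i` -/
theorem trQ_trace {L K : Type} [Field L] [Field K] [Algebra L K] (pb : PowerBasis L K) (a : L[X]) :
    Algebra.trace L K (aeval pb.gen a) = trQ (minpoly L pb.gen) a := by
  classical
  have hm : (minpoly L pb.gen).Monic := minpoly.monic pb.isIntegral_gen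
  have key : ∀ (b : L[X]) (i : Fin pb.dim), pb.basis.repr (aeval pb.gen b) i = (b %ₘ minpoly L pb.gen).coeff i := by
    intro b i
    have hd : (b %ₘ minpoly L pb.gen).natDegree < pb.dim := by
      rw [← pb.natDegree_minpoly]
      exact natDegree_modByMonic_lt b hm (minpoly.ne_one L pb.gen)
    rw [← aeval_modByMonic_eq_self_of_root (p := b) (minpoly.aeval L pb.gen), aeval_eq_sum_range' hd,
      Finset.sum_range]
    simp only [← pb.basis_eq_pow]
    exact congrFun (pb.basis.repr_sum_self fun j : Fin pb.dim => (b %ₘ minpoly L pb.gen).coeff j) i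
  rw [Algebra.trace_eq_matrix_trace pb.basis, Matrix.trace, trQ, pb.natDegree_minpoly, Finset.sum_range]
  refine Finset.sum_congr rfl fun i _ => ?_
  rw [Matrix.diag_apply, Algebra.leftMulMatrix_eq_repr_mul, pb.basis_eq_pow, ← key,
    map_mul (aeval pb.gen), map_pow (aeval pb.gen), aeval_X]

/-- Lagrange interpolation: `(a * X ^ i) %ₘ Q = ∑ u ∈ s, C (a u * u ^ i) * basis s id u`, and
`∑ i < d, u ^ i * (basis u).coeff i = (basis u).eval u = 1` -/
theorem trQ_roots {Q : ℂ[X]} (hQ : Q.Monic) {s : Finset ℂ} (hs : s.card = Q.natDegree) (hr : ∀ u ∈ s, Q.eval u = 0)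
    (a : ℂ[X]) : trQ Q a = ∑ u ∈ s, a.eval u := by
  classical
  have hi : InjOn (id : ℂ → ℂ) s := injOn_id _
  have key : ∀ b : ℂ[X], b %ₘ Q = ∑ u ∈ s, C (b.eval u) * Lagrange.basis s id u := by
    intro b
    rw [← Lagrange.interpolate_apply]
    refine Lagrange.eq_interpolate_of_eval_eq _ hi ?_ fun u hu => ?_
    · rw [hs, ← degree_eq_natDegree hQ.ne_zero]
      exact degree_modByMonic_lt b hQ
    · have := congrArg (eval u) (modByMonic_add_div b Q)
      rwa [eval_add, eval_mul, hr u hu, zero_mul, add_zero] at this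
  simp only [trQ, key, finsetSum_coeff, coeff_C_mul, eval_mul, eval_pow, eval_X]
  rw [Finset.sum_comm]
  refine Finset.sum_congr rfl fun u hu => ?_
  have h1 := Lagrange.eval_basis_self hi hu
  have h2 : (Lagrange.basis s id u).natDegree < Q.natDegree := by
    rw [Lagrange.natDegree_basis hi hu, ← hs]
    exact Nat.sub_lt (Finset.card_pos.2 ⟨u, hu⟩) one_pos
  rw [eval_eq_sum_range' h2] at h1
  refine Eq.trans ?_ ((congrArg (eval u a * ·) h1).trans (mul_one _))
  rw [Finset.mul_sum]
  refine Finset.sum_congr rfl fun i _ => ?_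
  simp only [id]
  ring

/-- divided differences: `geom_sum₂_mul`, `geom_sum₂_self` -/
theorem div_diff (Q : ℂ[X]) {N : ℕ} (hN : Q.natDegree < N) {u u' : ℂ} (hu : Q.eval u = 0) (hu' : Q.eval u' = 0) :
    ∑ k ∈ Finset.range N, Q.coeff k * ∑ i ∈ Finset.range k, u ^ i * u' ^ (k - 1 - i) =
      if u = u' then (derivative Q).eval u else 0 := by
  split_ifs with h
  · subst h
    rw [derivative_eval, sum_over_range' _ (fun _ => by simp) _ hN]
    refine Finset.sum_congr rfl fun k _ => ?_
    rw [geom_sum₂_self, mul_assoc]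
  · refine mul_right_cancel₀ (sub_ne_zero.2 h) ?_
    rw [eval_eq_sum_range' hN] at hu hu'
    rw [Finset.sum_mul]
    simp only [mul_assoc, geom_sum₂_mul]
    simp only [mul_sub, Finset.sum_sub_distrib, hu, hu', sub_zero, zero_mul]

/-- a monic polynomial with simple roots -/
theorem card_roots {Q : ℂ[X]} (hQ : Q.Monic) (h : ∀ u, Q.eval u = 0 → (derivative Q).eval u ≠ 0) :
    Q.roots.toFinset.card = Q.natDegree := by
  classical
  rw [Multiset.toFinset_card_of_nodup, IsAlgClosed.card_roots_eq_natDegree]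
  refine Multiset.nodup_iff_count_le_one.2 fun u => ?_
  rw [count_roots]
  by_contra h1
  have := (one_lt_rootMultiplicity_iff_isRoot hQ.ne_zero).1 (not_le.1 h1)
  exact h u this.1 this.2

end Crest.Agent.R271.T1
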