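import Crest.Agent.R271.T1.Alg
import Crest.Agent.R271.T1.Tr

/-! # Row 271, T1: the presentation of `g.A` -/

set_option autoImplicit false
set_option linter.unusedSectionVars false
set_option linter.unusedVariables false

open MeasureTheory Filter Topology Set Polynomial
open scoped ENNReal

noncomputable section

namespace Crest.Agent.R271.T1

variable {n : ℕ} {K : Type} [Field K] [Algebra ℂ K] (g : GR n K)

theorem Bridge_indep : AlgebraicIndependent ℂ g.z := g.indep

/-- `ℂ[X] → ℂ[z]` -/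
def Bridge_e : B n →+* Algebra.adjoin ℂ (range g.z) := (Bridge_indep g).aevalEquiv.toRingEquiv.toRingHom

/-- `ℂ[z] → ℂ[X]` -/
def Bridge_e' : Algebra.adjoin ℂ (range g.z) →+* B n := (Bridge_indep g).aevalEquiv.toRingEquiv.symm.toRingHom

theorem Bridge_ee' (a : (Algebra.adjoin ℂ (range g.z))[X]) : (a.map (Bridge_e' g)).map (Bridge_e g) = a := by
  rw [Polynomial.map_map, Bridge_e, Bridge_e', RingEquiv.toRingHom_comp_symm_toRingHom, Polynomial.map_id]

theorem Bridge_e'e (a : (B n)[X]) : (a.map (Bridge_e g)).map (Bridge_e' g) = a := by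
  rw [Polynomial.map_map, Bridge_e, Bridge_e', RingEquiv.symm_toRingHom_comp_toRingHom, Polynomial.map_id]

theorem Bridge_ev2 (a : (B n)[X]) :
    ev2 g.z g.U a = aeval g.U (a.map (Bridge_e g)) := by
  rw [aeval_def, eval₂_map]
  rfl

theorem Bridge_surj {f : K} (hf : f ∈ Algebra.adjoin ℂ (insert g.U (range g.z))) :
    ∃ G : (B n)[X], ev2 g.z g.U G = f := by
  induction hf using Algebra.adjoin_induction with
  | mem f hf =>
    rcases hf with rfl | ⟨i, rfl⟩
    · exact ⟨X, by simp⟩
    · exact ⟨C (MvPolynomial.X i), by simp⟩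
  | algebraMap c => exact ⟨C (MvPolynomial.C c), by simp⟩
  | add a b _ _ ha hb =>
    obtain ⟨P, rfl⟩ := ha
    obtain ⟨Q, rfl⟩ := hb
    exact ⟨P + Q, map_add _ _ _⟩
  | mul a b _ _ ha hb =>
    obtain ⟨P, rfl⟩ := ha
    obtain ⟨Q, rfl⟩ := hb
    exact ⟨P * Q, map_mul _ _ _⟩

/-- `U ^ m * t 0 ^ (m j) ∈ R (m j k)`, so by `fin` all powers of `U` lie in the span over `ℂ[z]` (Noetherian) of the
finitely many `r i / t 0 ^ (dg i / k)` -/
theorem U_integral : IsIntegral (Algebra.adjoin ℂ (range g.z)) g.U := by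
  classical
  obtain ⟨q, r, dg, hr, hR⟩ := g.fin
  obtain ⟨j, hj⟩ := g.U_mem
  have h0 := g.t0_ne
  have key : ∀ (j : ℕ), ∀ f ∈ g.R (j * g.k), f / g.t 0 ^ j ∈ Submodule.span
      (Algebra.adjoin ℂ (range g.z)) (range fun i => r i / g.t 0 ^ (dg i / g.k)) := by
    intro j f hf
    have hj' := hR _ hf
    clear hf
    induction hj' using Submodule.span_induction with
    | mem f hf =>
      obtain ⟨i, e, he, rfl⟩ := hf
      have hd : g.k ∣ dg i := (Nat.dvd_add_right (Dvd.intro _ rfl)).1 (he ▸ Dvd.intro_left j rfl)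
      obtain ⟨m, hm⟩ := hd
      have hj : j = ∑ a, e a + m := by
        apply Nat.eq_of_mul_eq_mul_left g.k_pos
        rw [mul_add, ← hm, he, mul_comm]
      have hB : ∏ a, (g.t a / g.t 0) ^ e a ∈ Algebra.adjoin ℂ (range g.z) := by
        refine prod_mem fun a _ => pow_mem ?_ _
        refine Fin.cases ?_ (fun a => Algebra.subset_adjoin ⟨a, rfl⟩) a
        rw [div_self h0]
        exact one_mem _
      have := Submodule.smul_mem (Submodule.span (Algebra.adjoin ℂ (range g.z))
        (range fun i => r i / g.t 0 ^ (dg i / g.k))) ⟨_, hB⟩ (Submodule.subset_span ⟨i, rfl⟩)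
      convert this using 1
      simp only
      rw [hm, Nat.mul_div_cancel_left _ g.k_pos, hj, Subalgebra.smul_def, smul_eq_mul]
      simp only [div_pow, Finset.prod_div_distrib, Finset.prod_pow_eq_pow_sum, pow_add]
      field_simp
    | zero => simp
    | add a b _ _ ha hb => rw [add_div]; exact add_mem ha hb
    | smul a b _ hb =>
      rw [smul_div_assoc]
      exact Submodule.smul_of_tower_mem _ a hb
  have hpow : ∀ m : ℕ, (g.U * g.t 0 ^ j) ^ m ∈ g.R (m * j * g.k) := by
    intro m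
    induction m with
    | zero => simpa using g.one_mem
    | succ m ih =>
      rw [pow_succ, add_mul, add_mul, one_mul]
      exact g.mul_mem _ _ _ ih _ hj
  have : IsNoetherianRing (Algebra.adjoin ℂ (range g.z)) :=
    isNoetherianRing_of_ringEquiv _ (Bridge_indep g).aevalEquiv.toRingEquiv
  refine IsIntegral.of_mem_of_fg (Algebra.adjoin _ {g.U}) (Submodule.FG.of_le
    (Submodule.fg_span (finite_range fun i => r i / g.t 0 ^ (dg i / g.k))) ?_) _
    (Algebra.self_mem_adjoin_singleton _ _)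
  rw [Algebra.adjoin_eq_span, Submodule.span_le]
  intro f hf
  obtain ⟨m, rfl⟩ := Submonoid.mem_closure_singleton.1 hf
  have := key _ _ (hpow m)
  rwa [mul_pow, ← pow_mul, mul_comm j m, mul_div_assoc, div_self (pow_ne_zero _ h0), mul_one] at this

/-- `Q = (minpoly ℂ[z] U).map (g.indep.aevalEquiv.symm)`; `ℂ[z]` is integrally closed, `minpoly.isIntegrallyClosed_dvd` -/
theorem exists_Q : ∃ Q : (B n)[X], Q.Monic ∧ ev2 g.z g.U Q = 0 ∧ (∀ a, ev2 g.z g.U a = 0 → Q ∣ a) ∧
    ∃ v ∈ g.A, v * ev2 g.z g.U (derivative Q) = 1 := by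
  have hz := Bridge_indep g
  have : IsIntegrallyClosed (Algebra.adjoin ℂ (range g.z)) :=
    IsIntegrallyClosed.of_equiv hz.aevalEquiv.toRingEquiv
  have hm := Bridge_ee' g (minpoly (Algebra.adjoin ℂ (range g.z)) g.U)
  refine ⟨(minpoly (Algebra.adjoin ℂ (range g.z)) g.U).map (Bridge_e' g),
    (minpoly.monic (U_integral g)).map _, ?_, fun a ha => ?_, ?_⟩
  · rw [Bridge_ev2, hm, minpoly.aeval]
  · rw [Bridge_ev2] at ha
    have := Polynomial.map_dvd (Bridge_e' g)
      (minpoly.isIntegrallyClosed_dvd (U_integral g) ha)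
    rwa [Bridge_e'e] at this
  · obtain ⟨v, hv, h⟩ := g.sep
    refine ⟨v, hv, ?_⟩
    rw [Bridge_ev2, ← derivative_map, hm]
    exact h

theorem exists_G : ∃ G : (B n)[X], ev2 g.z g.U G = g.g := by
  exact Bridge_surj g g.g_mem

theorem Bridge_top (L : IntermediateField ℂ K) (hz : ∀ i, g.z i ∈ L) (E : IntermediateField L K)
    (hU : g.U ∈ E) : E = ⊤ := by
  have hD : Algebra.adjoin ℂ (insert g.U (range g.z)) ≤ (E.restrictScalars ℂ).toSubalgebra := by
    refine Algebra.adjoin_le (insert_subset hU ?_)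
    rintro _ ⟨i, rfl⟩
    exact E.algebraMap_mem ⟨g.z i, hz i⟩
  have hA : g.A ≤ (E.restrictScalars ℂ).toSubalgebra := by
    rw [g.A_eq]
    exact Algebra.adjoin_le (insert_subset ((E.restrictScalars ℂ).inv_mem (hD g.g_mem))
      fun a ha => hD (Algebra.subset_adjoin ha))
  refine eq_top_iff.2 fun f _ => ?_
  obtain ⟨u, hu, v, hv, rfl⟩ := g.frac f
  exact (E.restrictScalars ℂ).div_mem (hA hu) (hA hv)

open scoped IntermediateField.algebraAdjoinAdjoin in
/-- `K = L(U)` with `L = ℂ(z)` (`frac`, `A_eq`, `g_mem`); `PowerBasis.ofAdjoinEqTop`; the minimal polynomial over `L` is the image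
of `Q` (clear denominators: `IsLocalization.integerNormalization`, or compare with `minpoly.isIntegrallyClosed_eq_field_fractions'`);
`trQ_trace`, `trQ_map` -/
theorem trace_ev2 {Q : (B n)[X]} (hQ : Q.Monic) (h0 : ev2 g.z g.U Q = 0) (hk : ∀ a, ev2 g.z g.U a = 0 → Q ∣ a)
    (f : (B n)[X]) : (Algebra.trace (IntermediateField.adjoin ℂ (range g.z)) K (ev2 g.z g.U f) : K) =
      MvPolynomial.aeval g.z (trQ Q f) := by
  have hz := Bridge_indep g
  have : IsIntegrallyClosed (Algebra.adjoin ℂ (range g.z)) :=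
    IsIntegrallyClosed.of_equiv hz.aevalEquiv.toRingEquiv
  have hU := U_integral g
  have hQe : Q.map (Bridge_e g) = minpoly (Algebra.adjoin ℂ (range g.z)) g.U := by
    have hm := Bridge_ee' g (minpoly (Algebra.adjoin ℂ (range g.z)) g.U)
    refine eq_of_monic_of_associated (hQ.map _) (minpoly.monic hU) (associated_of_dvd_dvd ?_ ?_)
    · rw [← hm]
      exact Polynomial.map_dvd _ (hk _ (by rw [Bridge_ev2, hm, minpoly.aeval]))
    · exact minpoly.isIntegrallyClosed_dvd hU (by rw [← Bridge_ev2, h0])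
  have hUL : IsIntegral (IntermediateField.adjoin ℂ (range g.z)) g.U := hU.tower_top
  have htop : Algebra.adjoin (IntermediateField.adjoin ℂ (range g.z)) {g.U} = ⊤ := by
    rw [← IntermediateField.adjoin_simple_toSubalgebra_of_isAlgebraic hUL.isAlgebraic,
      Bridge_top g _ (fun i => IntermediateField.subset_adjoin _ _ (mem_range_self i)) _
        (IntermediateField.mem_adjoin_simple_self _ _), IntermediateField.top_toSubalgebra]
  let ψ : B n →+* IntermediateField.adjoin ℂ (range g.z) :=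
    (algebraMap (Algebra.adjoin ℂ (range g.z)) _).comp (Bridge_e g)
  have h1 := trQ_trace (PowerBasis.ofAdjoinEqTop hUL htop) (f.map ψ)
  rw [PowerBasis.ofAdjoinEqTop_gen, minpoly.isIntegrallyClosed_eq_field_fractions' _ hU, ← hQe,
    Polynomial.map_map, trQ_map ψ hQ] at h1
  have h2 : aeval g.U (f.map ψ) = ev2 g.z g.U f := by
    rw [Bridge_ev2, ← Polynomial.map_map, aeval_map_algebraMap]
  rw [← h2, h1]
  rfl

theorem exists_SE : ∃ S : SE n g.A, S.z = g.zA ∧ (S.U : K) = g.U ∧ ∀ f : (B n)[X],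
    (Algebra.trace (IntermediateField.adjoin ℂ (range g.z)) K (ev2 g.z g.U f) : K) =
      MvPolynomial.aeval g.z (trQ S.Q f) := by
  obtain ⟨Q, hQ, h0, hk, v, hv, hv1⟩ := exists_Q g
  obtain ⟨G, hG⟩ := exists_G g
  have hU : g.U ∈ g.A := by
    rw [g.A_eq]; exact Algebra.subset_adjoin (Or.inr (Or.inl rfl))
  have hg : g.g⁻¹ ∈ g.A := by
    rw [g.A_eq]; exact Algebra.subset_adjoin (Or.inl rfl)
  have hc : ∀ a, ((ev2 g.zA ⟨g.U, hU⟩ a : g.A) : K) = ev2 g.z g.U a := fun a =>
    map_ev2 g.zA ⟨g.U, hU⟩ g.A.val a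
  refine ⟨{ z := g.zA
            U := ⟨g.U, hU⟩
            v := ⟨g.g⁻¹, hg⟩
            Q := Q
            G := G
            monic := hQ
            root := Subtype.ext (by rw [hc, h0]; rfl)
            vG := Subtype.ext (by
              rw [MulMemClass.coe_mul, hc, hG]
              exact inv_mul_cancel₀ g.g_ne)
            ker := fun a ha => hk a (by rw [← hc, ha]; rfl)
            sep := IsUnit.of_mul_eq_one_right ⟨v, hv⟩ (Subtype.ext (by
              rw [MulMemClass.coe_mul, hc]
              exact hv1))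
            gen := ?_ }, rfl, rfl, trace_ev2 g hQ h0 hk⟩
  apply Subalgebra.map_injective (f := g.A.val) Subtype.val_injective
  rw [AlgHom.map_adjoin, Algebra.map_top, Subalgebra.range_val, image_insert_eq, image_insert_eq,
    ← range_comp]
  exact g.A_eq.symm

end Crest.Agent.R271.T1
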