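import Crest.Agent.R271.T1.Defs

/-! # Row 271, T1: complex lines through a point, null sets, the degree bound -/

set_option autoImplicit false
set_option linter.unusedSectionVars false
set_option linter.unusedVariables false

open MeasureTheory Filter Topology Set Polynomial
open scoped ENNReal

noncomputable section

namespace Crest.Agent.R271.T1

variable {n : ℕ}

theorem one_le_nw (v : E n) : 1 ≤ nw v := by
  exact le_add_of_nonneg_right (Finset.sum_nonneg fun i _ => sq_nonneg _)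

theorem nw_cont : Continuous (nw : E n → ℝ) := by
  unfold nw
  fun_prop

theorem eval_cont (P : B n) : Continuous fun v : E n => MvPolynomial.eval v P := by
  exact MvPolynomial.continuous_eval P

/-- `Measure.map_linearMap_addHaar_eq_smul_addHaar`, `LinearMap.det_restrictScalars`, `Algebra.norm_complex_eq` -/
theorem lintegral_rad {F : E n → ℝ≥0∞} (hF : Measurable F) (v₀ : E n) {ζ : ℂ} (hζ : ζ ≠ 0) :
    ENNReal.ofReal (‖ζ‖ ^ (2 * n)) * ∫⁻ ξ, F (v₀ + ζ • ξ) = ∫⁻ v, F v := by
  let f : E n →ₗ[ℝ] E n := (ζ • LinearMap.id : E n →ₗ[ℂ] E n).restrictScalars ℝ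
  have hd : LinearMap.det f = ‖ζ‖ ^ (2 * n) := by
    rw [LinearMap.det_restrictScalars]
    simp [Algebra.norm_complex_apply, Complex.normSq_eq_norm_sq, ← pow_mul, mul_comm]
  have hp : 0 < ‖ζ‖ ^ (2 * n) := by positivity
  have h1 := Measure.map_linearMap_addHaar_eq_smul_addHaar (volume : Measure (E n)) (f := f) (hd ▸ hp.ne')
  have hf : Measurable f := f.continuous_of_finiteDimensional.measurable
  have h2 : ∫⁻ ξ, F (v₀ + ζ • ξ) = ∫⁻ v, F (v₀ + v) ∂(volume.map f) :=
    (lintegral_map (hF.comp (measurable_const_add v₀)) hf).symm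
  rw [h2, h1, lintegral_smul_measure, lintegral_add_left_eq_self, hd, smul_eq_mul, ← mul_assoc,
    ← ENNReal.ofReal_mul hp.le, abs_of_pos (inv_pos.2 hp), mul_inv_cancel₀ hp.ne', ENNReal.ofReal_one, one_mul]

/-- a polynomial restricted to a line -/
theorem line_poly (P : B n) (v₀ ξ : E n) : ∃ q : ℂ[X], ∀ ζ : ℂ, MvPolynomial.eval (v₀ + ζ • ξ) P = q.eval ζ := by
  refine ⟨MvPolynomial.aeval (fun i => C (v₀ i) + X * C (ξ i)) P, fun ζ => ?_⟩
  induction P using MvPolynomial.induction_on with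
  | C a => simp
  | add p q hp hq => simp only [map_add, eval_add, hp, hq]
  | mul_X p i hp => simp only [map_mul, eval_mul, hp]; simp [mul_comm ζ]

theorem line_finite {h : B n} {v₀ : E n} (h0 : MvPolynomial.eval v₀ h ≠ 0) (ξ : E n) :
    {ζ : ℂ | MvPolynomial.eval (v₀ + ζ • ξ) h = 0}.Finite := by
  obtain ⟨q, hq⟩ := line_poly h v₀ ξ
  have hq0 : q ≠ 0 := by
    rintro rfl
    simpa [h0] using hq 0
  simp only [hq]
  exact q.finite_setOfPred_isRoot hq0

/-- Tonelli for the indicator of `{(ζ, ξ) | h (v₀ + ζ ξ) = 0}`, `line_finite`, `lintegral_rad` -/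
theorem null_zero {h : B n} (hh : h ≠ 0) : volume {v : E n | MvPolynomial.eval v h = 0} = 0 := by
  obtain ⟨v₀, h0⟩ : ∃ v₀ : E n, MvPolynomial.eval v₀ h ≠ 0 := by
    by_contra! h1
    exact hh (MvPolynomial.funext fun v => by simp [h1])
  have hZ : MeasurableSet {v : E n | MvPolynomial.eval v h = 0} :=
    (isClosed_eq (eval_cont h) continuous_const).measurableSet
  have hF : Measurable ({v : E n | MvPolynomial.eval v h = 0}.indicator (1 : E n → ℝ≥0∞)) :=
    measurable_one.indicator hZ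
  have hm : Measurable fun q : ℂ × E n =>
      {v : E n | MvPolynomial.eval v h = 0}.indicator (1 : E n → ℝ≥0∞) (v₀ + q.1 • q.2) :=
    hF.comp (by fun_prop)
  have h1 : ∫⁻ ζ : ℂ, ∫⁻ ξ : E n, {v : E n | MvPolynomial.eval v h = 0}.indicator (1 : E n → ℝ≥0∞) (v₀ + ζ • ξ) = 0 := by
    rw [lintegral_lintegral_swap hm.aemeasurable]
    refine (lintegral_congr fun ξ => ?_).trans lintegral_zero
    refine (lintegral_congr_ae ?_).trans lintegral_zero
    filter_upwards [(line_finite h0 ξ).countable.ae_notMem volume] with ζ hζ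
    exact indicator_of_notMem (s := {v : E n | MvPolynomial.eval v h = 0}) hζ _
  obtain ⟨ζ, h2, h3⟩ := (((lintegral_eq_zero_iff hm.lintegral_prod_right').1 h1).and
    ((countable_singleton (0 : ℂ)).ae_notMem volume)).exists
  rw [← lintegral_indicator_one hZ, ← lintegral_rad hF v₀ h3]
  exact mul_eq_zero_of_right _ h2

theorem dense_ne {h : B n} (hh : h ≠ 0) : Dense {v : E n | MvPolynomial.eval v h ≠ 0} := by
  exact Measure.dense_of_ae (μ := volume) (by simpa [ae_iff] using null_zero hh)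

theorem rad_top {P : B n} (hP : P ≠ 0) : ∃ p : B n, p ≠ 0 ∧ ∀ ξ : E n,
    Tendsto (fun k : ℕ => MvPolynomial.eval ((k : ℂ) • ξ) P / (k : ℂ) ^ P.totalDegree) atTop
      (𝓝 (MvPolynomial.eval ξ p)) := by
  classical
  refine ⟨∑ m ∈ P.support, MvPolynomial.monomial m (P.coeff m * 0 ^ (P.totalDegree - ∑ i, m i)), ?_, fun ξ => ?_⟩
  · obtain ⟨m, hm, e⟩ := Finset.exists_mem_eq_sup P.support (MvPolynomial.support_nonempty.2 hP)
      fun s => s.sum fun _ e => e
    intro h
    have h1 := congrArg (MvPolynomial.coeff m) h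
    rw [Finsupp.sum_fintype _ _ fun _ => rfl] at e
    simp only [MvPolynomial.coeff_sum, MvPolynomial.coeff_monomial, Finset.sum_ite_eq', hm, if_true,
      MvPolynomial.totalDegree, e, Nat.sub_self, pow_zero, mul_one, MvPolynomial.coeff_zero] at h1
    exact MvPolynomial.mem_support_iff.1 hm h1
  · rw [map_sum]
    simp only [MvPolynomial.eval_eq' _ P, Finset.sum_div]
    refine tendsto_finsetSum _ fun m hm => ?_
    have h1 : ∑ i, m i ≤ P.totalDegree := by
      have := MvPolynomial.le_totalDegree hm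
      rwa [Finsupp.sum_fintype _ _ fun _ => rfl] at this
    rw [MvPolynomial.eval_monomial, Finsupp.prod_fintype _ _ fun _ => pow_zero _]
    refine (((((tendsto_inv_atTop_nhds_zero_nat (𝕜 := ℂ)).pow (P.totalDegree - ∑ i, m i))).const_mul
      (P.coeff m)).mul_const _).congr' ?_
    filter_upwards [eventually_ne_atTop 0] with k hk
    have hk0 : (k : ℂ) ≠ 0 := by exact_mod_cast hk
    simp only [Pi.smul_apply, smul_eq_mul, mul_pow, Finset.prod_mul_distrib, Finset.prod_pow_eq_pow_sum, inv_pow]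
    rw [pow_sub₀ _ hk0 h1]
    field_simp

/-- Suppose `P ≠ 0`, `d = totalDegree P`, `c ≤ d + n`; let `F` be the integrand and `p = homogeneousComponent d P ≠ 0`.
`∫_{‖ξ‖ > 1} k^(2n) F (k ξ) = ∫_{‖v‖ > k} F → 0` (`lintegral_rad`), `k^(2n) F (k ξ) ≥ ‖P (k ξ) / k^d‖² / nw ξ ^ c →
‖p ξ‖² / nw ξ ^ c`; Fatou gives `p = 0` a.e. on `{‖ξ‖ > 1}`, contradicting `null_zero`. -/
theorem deg_of_L2 (hn : 1 ≤ n) (P : B n) (c : ℕ)
    (hi : ∫⁻ v : E n, ENNReal.ofReal (‖MvPolynomial.eval v P‖ ^ 2 / nw v ^ c) ≠ ⊤) :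
    P = 0 ∨ P.totalDegree + n + 1 ≤ c := by
  by_contra! hc
  obtain ⟨hP, hc⟩ := hc
  obtain ⟨p, hp, hlim⟩ := rad_top hP
  have hw : ∀ v : E n, 0 < nw v := fun v => one_pos.trans_le (one_le_nw v)
  have hFm : Measurable fun v : E n => ENNReal.ofReal (‖MvPolynomial.eval v P‖ ^ 2 / nw v ^ c) :=
    (((eval_cont P).norm.pow 2).div (nw_cont.pow c) fun v => (pow_pos (hw v) c).ne').measurable.ennreal_ofReal
  have hS : ∀ r : ℝ, MeasurableSet {v : E n | r < ‖v‖} := fun r =>
    (isOpen_lt continuous_const continuous_norm).measurableSet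
  have h1 : Tendsto (fun k : ℕ => ∫⁻ v, {v : E n | (k : ℝ) < ‖v‖}.indicator
      (fun v => ENNReal.ofReal (‖MvPolynomial.eval v P‖ ^ 2 / nw v ^ c)) v) atTop (𝓝 0) := by
    have := tendsto_lintegral_of_dominated_convergence (μ := volume) (f := fun _ => 0) _
      (fun k : ℕ => hFm.indicator (hS k)) (fun k => Eventually.of_forall fun v => indicator_le_self _ _ v) hi
      (Eventually.of_forall fun v => tendsto_const_nhds.congr' (by
        filter_upwards [(tendsto_natCast_atTop_atTop (R := ℝ)).eventually_ge_atTop ‖v‖] with k hk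
        exact (indicator_of_notMem (s := {v : E n | (k : ℝ) < ‖v‖}) (not_lt.2 hk) _).symm))
    simpa using this
  let g : ℕ → E n → ℝ≥0∞ := fun k => {v : E n | 1 < ‖v‖}.indicator fun ξ =>
    ENNReal.ofReal (‖MvPolynomial.eval ((k : ℂ) • ξ) P / (k : ℂ) ^ P.totalDegree‖ ^ 2 / nw ξ ^ c)
  have hgm : ∀ k, Measurable (g k) := fun k =>
    ((((((eval_cont P).comp (continuous_const_smul (k : ℂ))).div_const _).norm.pow 2).div (nw_cont.pow c)
      fun v => (pow_pos (hw v) c).ne').measurable.ennreal_ofReal).indicator (hS 1)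
  have h2 : Tendsto (fun k => ∫⁻ ξ, g k ξ) atTop (𝓝 0) := by
    refine tendsto_of_tendsto_of_tendsto_of_le_of_le' tendsto_const_nhds h1 (Eventually.of_forall fun _ => zero_le) ?_
    filter_upwards [eventually_ge_atTop 1] with k hk
    have hk1 : (1 : ℝ) ≤ k := by exact_mod_cast hk
    have hk0 : (k : ℂ) ≠ 0 := by exact_mod_cast (by omega : k ≠ 0)
    rw [← lintegral_rad (hFm.indicator (hS k)) 0 hk0, ← lintegral_const_mul' _ _ ENNReal.ofReal_ne_top]
    refine lintegral_mono fun ξ => ?_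
    by_cases hξ : 1 < ‖ξ‖
    · have hξ' : (k : ℝ) < ‖(k : ℂ) • ξ‖ := by
        rw [norm_smul, Complex.norm_natCast]
        exact lt_mul_of_one_lt_right (by linarith) hξ
      simp only [g, zero_add]
      rw [indicator_of_mem (show ξ ∈ {v : E n | 1 < ‖v‖} from hξ),
        indicator_of_mem (show (k : ℂ) • ξ ∈ {v : E n | (k : ℝ) < ‖v‖} from hξ'),
        ← ENNReal.ofReal_mul (by positivity), norm_div, norm_pow, Complex.norm_natCast, div_pow, div_div,
        ← mul_div_assoc]
      refine ENNReal.ofReal_le_ofReal ?_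
      have h3 : nw ((k : ℂ) • ξ) ≤ (k : ℝ) ^ 2 * nw ξ := by
        simp only [nw, Pi.smul_apply, norm_smul, Complex.norm_natCast, mul_pow, ← Finset.mul_sum, mul_add]
        nlinarith
      have h4 : nw ((k : ℂ) • ξ) ^ c ≤ (k : ℝ) ^ (2 * n) * (((k : ℝ) ^ P.totalDegree) ^ 2 * nw ξ ^ c) := by
        refine (pow_le_pow_left₀ (hw _).le h3 c).trans ?_
        rw [mul_pow, ← mul_assoc, ← pow_mul, ← pow_mul, ← pow_add]
        exact mul_le_mul_of_nonneg_right (pow_le_pow_right₀ hk1 (by omega)) (pow_pos (hw _) _).le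
      have := hw ξ
      rw [div_le_div_iff₀ (by positivity) (pow_pos (hw _) _)]
      nlinarith [mul_le_mul_of_nonneg_left h4 (sq_nonneg ‖MvPolynomial.eval ((k : ℂ) • ξ) P‖)]
    · simp only [g]
      rw [indicator_of_notMem (show ξ ∉ {v : E n | 1 < ‖v‖} from hξ)]
      exact zero_le
  have h3 := (lintegral_liminf_le (μ := volume) (u := atTop) hgm).trans_eq h2.liminf_eq
  have h4 := (lintegral_eq_zero_iff (Measurable.liminf hgm)).1 (nonpos_iff_eq_zero.1 h3)
  have h5 : volume {v : E n | 1 < ‖v‖} = 0 := by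
    refine measure_mono_null_ae ?_ (null_zero hp)
    filter_upwards [h4] with ξ hξ hξ1
    have h6 : Tendsto (fun k => g k ξ) atTop (𝓝 (ENNReal.ofReal (‖MvPolynomial.eval ξ p‖ ^ 2 / nw ξ ^ c))) := by
      simp only [g, indicator_of_mem (show ξ ∈ {v : E n | 1 < ‖v‖} from hξ1)]
      exact ENNReal.tendsto_ofReal (((hlim ξ).norm.pow 2).div_const _)
    rw [h6.liminf_eq, Pi.zero_apply, ENNReal.ofReal_eq_zero] at hξ
    by_contra h7
    have : 0 < ‖MvPolynomial.eval ξ p‖ := norm_pos_iff.2 h7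
    have := hw ξ
    exact absurd hξ (not_le.2 (by positivity))
  have : Nonempty (Fin n) := ⟨⟨0, hn⟩⟩
  exact (isOpen_lt continuous_const continuous_norm).measure_ne_zero volume ⟨fun _ => 2, by simp⟩ h5

end Crest.Agent.R271.T1
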