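import Crest.Agent.R271.T1.OV
import Crest.Agent.R271.T1.Rad
import Crest.Agent.R266.SCV

/-! # Row 271, T1: square integrable holomorphic functions off a hypersurface are polynomials -/

set_option autoImplicit false
set_option linter.unusedSectionVars false
set_option linter.unusedVariables false

open MeasureTheory Filter Topology Set Polynomial
open scoped ENNReal

noncomputable section

namespace Crest.Agent.R271.T1

variable {n : ℕ}

/-- Taylor polynomials: expand `p k (fun _ => ξ)` in the basis (`ContinuousMultilinearMap.map_sum`, `map_smul_univ`) -/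
theorem taylor_poly (p : FormalMultilinearSeries ℂ (E n) ℂ) (v₀ : E n) (m : ℕ) :
    ∃ P : B n, ∀ ξ : E n, MvPolynomial.eval (v₀ + ξ) P = p.partialSum m ξ := by
  classical
  refine ⟨∑ k ∈ Finset.range m, ∑ r : Fin k → Fin n, MvPolynomial.C (p k fun i => Pi.single (r i) 1) *
    ∏ i, (MvPolynomial.X (r i) - MvPolynomial.C (v₀ (r i))), fun ξ => ?_⟩
  simp only [map_sum, map_mul, map_prod, map_sub, MvPolynomial.eval_C, MvPolynomial.eval_X, Pi.add_apply,
    add_sub_cancel_left, FormalMultilinearSeries.partialSum]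
  refine Finset.sum_congr rfl fun k _ => ?_
  have : (fun _ : Fin k => ξ) = fun _ => ∑ j, ξ j • (Pi.single j 1 : E n) := funext fun _ => pi_eq_sum_univ' ξ
  rw [this, ContinuousMultilinearMap.map_sum]
  refine Finset.sum_congr rfl fun r _ => ?_
  rw [ContinuousMultilinearMap.map_smul_univ, smul_eq_mul, mul_comm]

/-- Tonelli for `‖ζ‖^(2n) (1 + ‖ζ‖²)^(-2) F (v₀ + ζ ξ)`, `lintegral_rad`; `nw (v₀ + ζ ξ) ≤ C (1 + ‖ζ‖²)` -/
theorem ae_line {T : E n → ℂ} (hT : Measurable T) (v₀ : E n) (c : ℕ)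
    (hi : ∫⁻ v, ENNReal.ofReal (‖T v‖ ^ 2 / nw v ^ c) ≠ ⊤) :
    ∀ᵐ ξ : E n, ∫⁻ ζ : ℂ, ENNReal.ofReal (‖ζ ^ n * T (v₀ + ζ • ξ)‖ ^ 2 / (1 + ‖ζ‖ ^ 2) ^ (c + 2)) ≠ ⊤ := by
  set F : E n → ℝ≥0∞ := fun v => ENNReal.ofReal (‖T v‖ ^ 2 / nw v ^ c) with hF
  have hFm : Measurable F := ((hT.norm.pow_const 2).div (nw_cont.measurable.pow_const c)).ennreal_ofReal
  set H : E n × ℂ → ℝ≥0∞ := fun x => ENNReal.ofReal (1 / (1 + ‖x.2‖ ^ 2) ^ 2) *
    (ENNReal.ofReal (‖x.2‖ ^ (2 * n)) * F (v₀ + x.2 • x.1)) with hH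
  have hHm : Measurable H := by
    refine Measurable.mul (by fun_prop) (Measurable.mul (by fun_prop) (hFm.comp ?_))
    exact Continuous.measurable (by fun_prop)
  have h1 : ∫⁻ ζ : ℂ, ENNReal.ofReal (1 / (1 + ‖ζ‖ ^ 2) ^ 2) ≠ ⊤ := by
    have := (integrable_rpow_neg_one_add_norm_sq (E := ℂ) (μ := volume) (r := 4)
      (by rw [Complex.finrank_real_complex]; norm_num)).lintegral_lt_top
    refine ne_of_eq_of_ne (lintegral_congr fun ζ => ?_) this.ne
    rw [show (-4 / 2 : ℝ) = -(2 : ℕ) by norm_num, Real.rpow_neg (by positivity), Real.rpow_natCast, one_div]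
  have h2 : ∫⁻ ξ, ∫⁻ ζ, H (ξ, ζ) ≠ ⊤ := by
    rw [lintegral_lintegral_swap (f := fun ξ ζ => H (ξ, ζ)) hHm.aemeasurable]
    refine ne_of_eq_of_ne ?_ (ENNReal.mul_ne_top h1 hi)
    rw [← lintegral_mul_const' _ _ hi]
    refine lintegral_congr_ae ?_
    filter_upwards [compl_mem_ae_iff.2 (measure_singleton (0 : ℂ))] with ζ hζ
    simp only [hH]
    rw [lintegral_const_mul' _ _ ENNReal.ofReal_ne_top, lintegral_const_mul' _ _ ENNReal.ofReal_ne_top,
      lintegral_rad hFm v₀ hζ]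
  filter_upwards [ae_lt_top hHm.lintegral_prod_right' h2] with ξ hξ
  set C : ℝ := 1 + 2 * ∑ i, ‖v₀ i‖ ^ 2 + 2 * ∑ i, ‖ξ i‖ ^ 2 with hC
  refine ne_top_of_le_ne_top (ENNReal.mul_ne_top (ENNReal.ofReal_ne_top (r := C ^ c)) hξ.ne) ?_
  rw [← lintegral_const_mul' _ _ ENNReal.ofReal_ne_top]
  refine lintegral_mono fun ζ => ?_
  have h3 := one_le_nw (v₀ + ζ • ξ)
  have h4 : nw (v₀ + ζ • ξ) ≤ C * (1 + ‖ζ‖ ^ 2) := by
    have h5 : ∑ i, ‖(v₀ + ζ • ξ) i‖ ^ 2 ≤ 2 * ∑ i, ‖v₀ i‖ ^ 2 + 2 * ‖ζ‖ ^ 2 * ∑ i, ‖ξ i‖ ^ 2 := by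
      rw [Finset.mul_sum, Finset.mul_sum, ← Finset.sum_add_distrib]
      refine Finset.sum_le_sum fun i _ => ?_
      have h6 : ‖(v₀ + ζ • ξ) i‖ ≤ ‖v₀ i‖ + ‖ζ‖ * ‖ξ i‖ := by
        rw [← norm_mul]
        exact norm_add_le _ _
      have h7 := pow_le_pow_left₀ (norm_nonneg _) h6 2
      nlinarith [sq_nonneg (‖v₀ i‖ - ‖ζ‖ * ‖ξ i‖)]
    have h6 : 0 ≤ ∑ i, ‖v₀ i‖ ^ 2 := by positivity
    have h7 : 0 ≤ ∑ i, ‖ξ i‖ ^ 2 := by positivity
    rw [nw, hC]
    nlinarith [sq_nonneg ‖ζ‖, mul_nonneg h6 (sq_nonneg ‖ζ‖)]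
  simp only [hH, hF]
  rw [← ENNReal.ofReal_mul (by positivity), ← ENNReal.ofReal_mul (by positivity),
    ← ENNReal.ofReal_mul (by positivity)]
  refine ENNReal.ofReal_le_ofReal ?_
  have h5 := pow_le_pow_left₀ (by positivity) h4 c
  have h6 : C ^ c * (1 / (1 + ‖ζ‖ ^ 2) ^ 2 * (‖ζ‖ ^ (2 * n) * (‖T (v₀ + ζ • ξ)‖ ^ 2 / nw (v₀ + ζ • ξ) ^ c))) =
      ‖ζ ^ n * T (v₀ + ζ • ξ)‖ ^ 2 / (1 + ‖ζ‖ ^ 2) ^ (c + 2) * ((C * (1 + ‖ζ‖ ^ 2)) ^ c / nw (v₀ + ζ • ξ) ^ c) := by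
    rw [norm_mul, norm_pow, mul_pow, mul_pow]
    field_simp
    ring
  rw [h6]
  exact le_mul_of_one_le_right (by positivity) ((one_le_div (by positivity)).2 h5)

/-- Take `v₀` with `h v₀ ≠ 0`, the power series `p` of `T` at `v₀` (`R266.analyticAt_of_ev`), `m = c + 3`.  For a.e. `ξ`:
`ζ^n T (v₀ + ζ ξ) = q ζ` off a finite set (`ae_line`, `ov_poly`), `q - X^n ∑_{k < m} p_k (ξ) X^k` has degree `≤ n + c + 2` and is
`O (ζ^(n + m))`, so it vanishes; put `ζ = 1`.  Continuity on the open set `{h ≠ 0}` removes the a.e. -/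
theorem poly_of_L2' {h : B n} (hh : h ≠ 0) {T : E n → ℂ} (hm : Measurable T)
    (hT : ∀ v, MvPolynomial.eval v h ≠ 0 → DifferentiableAt ℂ T v) (c : ℕ)
    (hi : ∫⁻ v, ENNReal.ofReal (‖T v‖ ^ 2 / nw v ^ c) ≠ ⊤) :
    ∃ P : B n, ∀ v, MvPolynomial.eval v h ≠ 0 → T v = MvPolynomial.eval v P := by
  obtain ⟨v₀, h0⟩ := (dense_ne hh).nonempty
  have hW : IsOpen {v : E n | MvPolynomial.eval v h ≠ 0} := isOpen_ne_fun (eval_cont h) continuous_const
  obtain ⟨p, hp⟩ := R266.analyticAt_of_ev (f := T) (x := v₀) (mem_of_superset (hW.mem_nhds h0) hT)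
  obtain ⟨P, hP⟩ := taylor_poly p v₀ (c + 3)
  have key : ∀ᵐ ξ : E n, MvPolynomial.eval (v₀ + ξ) h ≠ 0 → T (v₀ + ξ) = MvPolynomial.eval (v₀ + ξ) P := by
    filter_upwards [ae_line hm v₀ c hi] with ξ hξ h1
    have hS := line_finite h0 ξ
    obtain ⟨q, hq, hq'⟩ := ov_poly hS (g := fun ζ => ζ ^ n * T (v₀ + ζ • ξ)) (fun ζ hζ =>
      (differentiableAt_id.pow n).mul ((hT _ hζ).comp ζ (by fun_prop))) (c + 2) hξ
    have h2 : ∀ ζ : ℂ, (∑ k ∈ Finset.range (c + 3), C (p k fun _ => ξ) * X ^ k).eval ζ =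
        p.partialSum (c + 3) (ζ • ξ) := fun ζ => by
      simp only [eval_finsetSum, eval_mul, eval_C, eval_pow, eval_X, FormalMultilinearSeries.partialSum]
      refine Finset.sum_congr rfl fun k _ => ?_
      rw [ContinuousMultilinearMap.map_smul_univ, Finset.prod_const, Finset.card_univ, Fintype.card_fin, smul_eq_mul,
        mul_comm]
    have h3 : q - X ^ n * ∑ k ∈ Finset.range (c + 3), C (p k fun _ => ξ) * X ^ k = 0 := by
      refine poly_zero_of_bigO (N := n + (c + 2)) ((natDegree_sub_le _ _).trans (max_le (by omega) ?_)) ?_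
      · refine natDegree_mul_le.trans (add_le_add (natDegree_X_pow_le n) ?_)
        refine natDegree_sum_le_of_forall_le _ _ fun k hk => (natDegree_C_mul_X_pow_le _ _).trans ?_
        exact Nat.lt_succ_iff.1 (Finset.mem_range.1 hk)
      · have h4 : Tendsto (fun ζ : ℂ => ζ • ξ) (𝓝[≠] 0) (𝓝 0) := by
          have : Continuous fun ζ : ℂ => ζ • ξ := by fun_prop
          simpa using (this.tendsto 0).mono_left (nhdsWithin_le_nhds (s := {0}ᶜ))
        have h5 := (Asymptotics.isBigO_refl (fun ζ : ℂ => ζ ^ n) (𝓝[≠] 0)).norm_right.mul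
          ((hp.isBigO_sub_partialSum_pow (c + 3)).comp_tendsto h4)
        refine (h5.congr' ?_ EventuallyEq.rfl).trans (Asymptotics.IsBigO.of_bound (‖ξ‖ ^ (c + 3)) ?_)
        · filter_upwards [mem_nhdsWithin_of_mem_nhds (hS.isClosed.isOpen_compl.mem_nhds
            (show (0 : ℂ) ∈ _ by simpa using h0))] with ζ hζ
          rw [eval_sub, ← hq' ζ hζ, eval_mul, h2, eval_pow, eval_X, Function.comp, mul_sub]
        · refine Eventually.of_forall fun ζ => le_of_eq ?_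
          simp only [Function.comp, norm_mul, norm_pow, norm_norm, norm_smul]
          ring
    have h4 := congrArg (eval 1) h3
    rw [eval_sub, ← hq' 1 (by simpa using h1), eval_mul, h2, eval_pow, eval_X, one_pow, one_mul, one_mul, one_smul,
      eval_zero, sub_eq_zero] at h4
    rw [hP, h4]
  have hc : Continuous fun ξ : E n => v₀ + ξ := by fun_prop
  have h1 := Measure.eqOn_open_of_ae_eq (μ := volume) (f := fun ξ => T (v₀ + ξ))
    (g := fun ξ => MvPolynomial.eval (v₀ + ξ) P) ((ae_restrict_iff' (hW.preimage hc).measurableSet).2 key)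
    (hW.preimage hc) (fun ξ hξ => ((hT _ hξ).continuousAt.comp hc.continuousAt).continuousWithinAt)
    ((eval_cont P).comp hc).continuousOn
  refine ⟨P, fun v hv => ?_⟩
  have := h1 (x := v - v₀) (by simpa using hv)
  simpa using this

/-- replace `T` by the measurable `indicator {h ≠ 0} T`; `null_zero`, `deg_of_L2` -/
theorem poly_of_L2 (hn : 1 ≤ n) {h : B n} (hh : h ≠ 0) {T : E n → ℂ}
    (hT : ∀ v, MvPolynomial.eval v h ≠ 0 → DifferentiableAt ℂ T v) (c : ℕ)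
    (hi : ∫⁻ v, ENNReal.ofReal (‖T v‖ ^ 2 / nw v ^ c) ≠ ⊤) :
    ∃ P : B n, (P = 0 ∨ P.totalDegree + n + 1 ≤ c) ∧
      ∀ v, MvPolynomial.eval v h ≠ 0 → T v = MvPolynomial.eval v P := by
  classical
  have hW : IsOpen {v : E n | MvPolynomial.eval v h ≠ 0} := isOpen_ne_fun (eval_cont h) continuous_const
  have hae : ∀ᵐ v : E n, MvPolynomial.eval v h ≠ 0 := by
    rw [ae_iff]
    simpa using null_zero hh
  set T' : E n → ℂ := {v : E n | MvPolynomial.eval v h ≠ 0}.piecewise T fun _ => 0 with hT'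
  have h1 : ∀ v, MvPolynomial.eval v h ≠ 0 → T' v = T v := fun v hv => piecewise_eq_of_mem _ _ _ hv
  obtain ⟨P, hP⟩ := poly_of_L2' hh (T := T') (ContinuousOn.measurable_piecewise
    (fun v hv => (hT v hv).continuousAt.continuousWithinAt) continuousOn_const hW.measurableSet)
    (fun v hv => (hT v hv).congr_of_eventuallyEq (mem_of_superset (hW.mem_nhds hv) h1)) c
    (ne_of_eq_of_ne (lintegral_congr_ae (hae.mono fun v hv => by simp only [h1 v hv])) hi)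
  refine ⟨P, deg_of_L2 hn P c (ne_of_eq_of_ne (lintegral_congr_ae (hae.mono fun v hv => ?_)) hi),
    fun v hv => (h1 v hv).symm.trans (hP v hv)⟩
  simp only [← hP v hv, h1 v hv]

end Crest.Agent.R271.T1
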