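import Crest.Agent.R271.T1.Pts
import Crest.Agent.R271.T1.Poly

/-! # Row 271, T1: regular functions and traces -/

set_option autoImplicit false
set_option linter.unusedSectionVars false
set_option linter.unusedVariables false

open MeasureTheory Filter Topology Set Polynomial
open scoped ENNReal

noncomputable section

namespace Crest.Agent.R271.T1

namespace SE
variable {n : ℕ} {A : Type} [CommRing A] [IsDomain A] [Algebra ℂ A] (S : SE n A)

/-- polynomial growth -/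
def PG (f : S.Pt → ℂ) : Prop := ∃ (C : ℝ) (c : ℕ), 0 ≤ C ∧ ∀ y, ‖f y‖ ≤ C * nw (S.p y) ^ c

variable {S} in
theorem PG.add {f g : S.Pt → ℂ} (hf : S.PG f) (hg : S.PG g) : S.PG fun y => f y + g y := by
  obtain ⟨C, c, hC, h⟩ := hf
  obtain ⟨C', c', hC', h'⟩ := hg
  refine ⟨C + C', c + c', by positivity, fun y => (norm_add_le _ _).trans ?_⟩
  have h1 := one_le_nw (S.p y)
  have h2 := mul_le_mul_of_nonneg_left (pow_le_pow_right₀ h1 (Nat.le_add_right c c')) hC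
  have h3 := mul_le_mul_of_nonneg_left (pow_le_pow_right₀ h1 (Nat.le_add_left c' c)) hC'
  linarith [h y, h' y]

variable {S} in
theorem PG.mul {f g : S.Pt → ℂ} (hf : S.PG f) (hg : S.PG g) : S.PG fun y => f y * g y := by
  obtain ⟨C, c, hC, h⟩ := hf
  obtain ⟨C', c', hC', h'⟩ := hg
  refine ⟨C * C', c + c', by positivity, fun y => ?_⟩
  have h1 := one_le_nw (S.p y)
  rw [norm_mul, pow_add, mul_mul_mul_comm]
  exact mul_le_mul (h y) (h' y) (norm_nonneg _) (by positivity)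

theorem pg_const (a : ℂ) : S.PG fun _ => a := ⟨‖a‖, 0, norm_nonneg _, fun y => by simp⟩

variable {S} in
theorem PG.pow {f : S.Pt → ℂ} (hf : S.PG f) (k : ℕ) : S.PG fun y => f y ^ k := by
  induction k with
  | zero => simpa using S.pg_const 1
  | succ k ih => simpa only [pow_succ] using ih.mul hf

theorem pg_eval (b : B n) : S.PG fun y => MvPolynomial.eval (S.p y) b := by
  induction b using MvPolynomial.induction_on with
  | C a => simpa using S.pg_const a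
  | add p q hp hq => simpa only [map_add] using hp.add hq
  | mul_X p i hp =>
    simp only [map_mul, MvPolynomial.eval_X]
    refine hp.mul ⟨1, 1, zero_le_one, fun y => ?_⟩
    have := Finset.single_le_sum (f := fun i => ‖S.p y i‖ ^ 2) (fun i _ => by positivity) (Finset.mem_univ i)
    simp only [nw, one_mul, pow_one]
    nlinarith [norm_nonneg (S.p y i)]

theorem pg_U : S.PG fun y => y.1.2 := by
  have h1 : ∀ k : ℕ, ∃ (C : ℝ) (c : ℕ), 0 ≤ C ∧ ∀ y, ∀ i < k, ‖MvPolynomial.eval (S.p y) (S.Q.coeff i)‖ + 1 ≤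
      C * nw (S.p y) ^ c := by
    intro k
    induction k with
    | zero => exact ⟨0, 0, le_rfl, fun y i hi => absurd hi (Nat.not_lt_zero i)⟩
    | succ k ih =>
      obtain ⟨C, c, hC, h⟩ := ih
      obtain ⟨C', c', hC', h'⟩ := S.pg_eval (S.Q.coeff k)
      refine ⟨C + C' + 1, c + c', by positivity, fun y i hi => ?_⟩
      have h1 := one_le_nw (S.p y)
      have h2 := mul_le_mul_of_nonneg_left (pow_le_pow_right₀ h1 (Nat.le_add_right c c')) hC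
      have h3 := mul_le_mul_of_nonneg_left (pow_le_pow_right₀ h1 (Nat.le_add_left c' c)) hC'
      have h4 := one_le_pow₀ (n := c + c') h1
      have h5 : 0 ≤ C * nw (S.p y) ^ c := by positivity
      have h6 : 0 ≤ C' * nw (S.p y) ^ c' := by positivity
      rcases Nat.lt_succ_iff_lt_or_eq.1 hi with hi | rfl
      · linarith [h y i hi]
      · linarith [h' y]
  obtain ⟨C, c, hC, h⟩ := h1 S.Q.natDegree
  refine ⟨C + 1, c, by positivity, fun y => ?_⟩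
  have hm := S.monic.map (MvPolynomial.eval (S.p y))
  have hr : (S.Q.map (MvPolynomial.eval (S.p y))).IsRoot y.1.2 := by
    rw [IsRoot.def, ← ev2_eq_eval]
    exact y.2.1
  have h2 := hr.norm_lt_cauchyBound hm.ne_zero
  have h0 := one_le_nw (S.p y)
  have h4 := one_le_pow₀ (n := c) h0
  have h3 : (Finset.range S.Q.natDegree).sup (fun i => ‖(S.Q.map (MvPolynomial.eval (S.p y))).coeff i‖₊) ≤
      Real.toNNReal (C * nw (S.p y) ^ c) := by
    refine Finset.sup_le fun i hi => ?_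
    have := h y i (Finset.mem_range.1 hi)
    rw [coeff_map, ← NNReal.coe_le_coe, Real.coe_toNNReal _ (by positivity), coe_nnnorm]
    linarith
  rw [cauchyBound, hm.leadingCoeff, nnnorm_one, div_one, S.monic.natDegree_map] at h2
  have h5 := NNReal.coe_le_coe.2 (h2.le.trans (add_le_add_left h3 1))
  rw [coe_nnnorm, NNReal.coe_add, Real.coe_toNNReal _ (by positivity), NNReal.coe_one] at h5
  linarith

theorem pg_ev2 (a : (B n)[X]) : S.PG fun y => ev2 y.1.1 y.1.2 a := by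
  induction a using Polynomial.induction_on' with
  | add p q hp hq => simpa only [map_add] using hp.add hq
  | monomial k b =>
    rw [← C_mul_X_pow_eq_monomial]
    simp only [map_mul, map_pow, ev2_C, ev2_X]
    exact (S.pg_eval b).mul (S.pg_U.pow k)

/-- polynomial growth: Cauchy's bound for the root `U` of the monic polynomial `Q` -/
theorem growth (a : (B n)[X]) : ∃ (C : ℝ) (c : ℕ), 0 ≤ C ∧ ∀ y : S.Pt, ‖ev2 y.1.1 y.1.2 a‖ ^ 2 ≤ C * nw (S.p y) ^ c := by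
  obtain ⟨C, c, hC, h⟩ := S.pg_ev2 a
  refine ⟨C ^ 2, c * 2, by positivity, fun y => ?_⟩
  rw [pow_mul, ← mul_pow]
  exact pow_le_pow_left₀ (norm_nonneg _) (h y) 2

theorem fib_poly (hn : 1 ≤ n) {h : B n} {a b : (B n)[X]} (hh : h ≠ 0) (e : C h = S.G * a + S.Q * b) {F : S.Pt → ℂ}
    (hF : S.dom.Hol F) (c : ℕ) (hi : ∫⁻ y, ENNReal.ofReal (‖F y‖ ^ 2 / nw (S.p y) ^ c) ∂S.dom.μ ≠ ⊤) :
    ∃ P : B n, (P = 0 ∨ P.totalDegree + n + 1 ≤ c) ∧
      ∀ v, MvPolynomial.eval v h ≠ 0 → ∑ᶠ y ∈ S.p ⁻¹' {v}, F y = MvPolynomial.eval v P := by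
  have hW : IsOpen {v : E n | MvPolynomial.eval v h ≠ 0} := isOpen_ne_fun (eval_cont h) continuous_const
  refine poly_of_L2 hn hh (fun v hv => fib_diff (D := S.dom) hW (fun v hv => fib_eq e hv) hF hv) c ?_
  exact ne_top_of_le_ne_top (ENNReal.mul_ne_top (ENNReal.natCast_ne_top _) hi)
    (lintegral_fib_le S.dom S.fib_le (hol_cont hF) c)

theorem growth_w : ∃ (C : ℝ) (c : ℕ), 0 ≤ C ∧ ∀ y : S.Pt,
    ‖ev2 y.1.1 y.1.2 S.G‖ ^ 2 * (1 + ∑ i, ‖S.ev y (S.w i)‖ ^ 2) ≤ C * nw (S.p y) ^ c := by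
  have h1 : ∀ i, ∃ a : (B n)[X], ∀ y : S.Pt, ev2 y.1.1 y.1.2 S.G * S.ev y (S.w i) = ev2 y.1.1 y.1.2 a := by
    intro i
    refine Fin.cases ⟨1, fun y => ?_⟩ (fun i => Fin.cases ⟨S.G * X, fun y => ?_⟩
      (fun i => ⟨S.G * C (MvPolynomial.X i), fun y => ?_⟩) i) i
    · rw [show S.w 0 = S.v from rfl, S.ev_v, map_one]
      exact mul_inv_cancel₀ y.2.2
    · rw [show S.w (Fin.succ 0) = S.U from rfl, S.ev_U, map_mul, ev2_X]
    · rw [show S.w i.succ.succ = S.z i from rfl, S.ev_z, map_mul, ev2_C, MvPolynomial.aeval_X]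
      rfl
  choose a ha using h1
  choose C c hC h using fun i => S.growth (a i)
  obtain ⟨C₀, c₀, hC₀, h₀⟩ := S.growth S.G
  refine ⟨C₀ + ∑ i, C i, c₀ + ∑ i, c i, add_nonneg hC₀ (Finset.sum_nonneg fun i _ => hC i), fun y => ?_⟩
  have h1 := one_le_nw (S.p y)
  rw [mul_add, mul_one, add_mul, Finset.mul_sum, Finset.sum_mul]
  refine add_le_add ((h₀ y).trans (mul_le_mul_of_nonneg_left (pow_le_pow_right₀ h1 (Nat.le_add_right _ _)) hC₀))
    (Finset.sum_le_sum fun i _ => ?_)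
  rw [← mul_pow, ← norm_mul, ha]
  refine (h i y).trans (mul_le_mul_of_nonneg_left (pow_le_pow_right₀ h1 ?_) (hC i))
  exact (Finset.single_le_sum (f := c) (fun _ _ => Nat.zero_le _) (Finset.mem_univ i)).trans (Nat.le_add_left _ _)

theorem alg_L2 {F : S.Pt → ℂ} {K : ℝ}
    (hi : ∫⁻ y, ENNReal.ofReal (‖F y‖ ^ 2 / (1 + ∑ i, ‖S.ev y (S.w i)‖ ^ 2) ^ K) ∂S.dom.μ ≠ ⊤) (j : ℕ) :
    ∃ c : ℕ, ∫⁻ y, ENNReal.ofReal (‖F y * S.ev y (ev2 S.z S.U (S.G ^ ⌈K⌉₊ * X ^ j))‖ ^ 2 / nw (S.p y) ^ c)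
      ∂S.dom.μ ≠ ⊤ := by
  obtain ⟨C, c, hC, h⟩ := S.growth_w
  obtain ⟨C', c', hC', h'⟩ := S.growth (X ^ j)
  refine ⟨c * ⌈K⌉₊ + c', ne_top_of_le_ne_top
    (ENNReal.mul_ne_top (ENNReal.ofReal_ne_top (r := C ^ ⌈K⌉₊ * C')) hi) ?_⟩
  rw [← lintegral_const_mul' _ _ ENNReal.ofReal_ne_top]
  refine lintegral_mono fun y => ?_
  rw [← ENNReal.ofReal_mul (by positivity)]
  refine ENNReal.ofReal_le_ofReal ?_
  have h1 := one_le_nw (S.p y)
  set W := 1 + ∑ i, ‖S.ev y (S.w i)‖ ^ 2 with hW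
  have hW1 : 1 ≤ W := le_add_of_nonneg_right (by positivity)
  have h2 : W ^ K ≤ W ^ ⌈K⌉₊ := by
    rw [← Real.rpow_natCast]
    exact Real.rpow_le_rpow_of_exponent_le hW1 (Nat.le_ceil K)
  have h3 : 0 < W ^ K := Real.rpow_pos_of_pos (by linarith) K
  have h4 := pow_le_pow_left₀ (by positivity) (h y) ⌈K⌉₊
  rw [S.ev_ev2, map_mul, map_pow, norm_mul, norm_mul, norm_pow, ← mul_div_assoc,
    div_le_div_iff₀ (by positivity) h3]
  calc (‖F y‖ * (‖ev2 y.1.1 y.1.2 S.G‖ ^ ⌈K⌉₊ * ‖ev2 y.1.1 y.1.2 (X ^ j)‖)) ^ 2 * W ^ K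
      ≤ (‖F y‖ * (‖ev2 y.1.1 y.1.2 S.G‖ ^ ⌈K⌉₊ * ‖ev2 y.1.1 y.1.2 (X ^ j)‖)) ^ 2 * W ^ ⌈K⌉₊ := by gcongr
    _ = ‖F y‖ ^ 2 * ((‖ev2 y.1.1 y.1.2 S.G‖ ^ 2 * W) ^ ⌈K⌉₊ * ‖ev2 y.1.1 y.1.2 (X ^ j)‖ ^ 2) := by ring
    _ ≤ ‖F y‖ ^ 2 * ((C * nw (S.p y) ^ c) ^ ⌈K⌉₊ * (C' * nw (S.p y) ^ c')) := by
      gcongr
      exact h' y
    _ = _ := by ring

theorem alg (hn : 1 ≤ n) (F : S.Pt → ℂ) (K : ℝ) (hF : S.dom.Hol F)
    (hi : ∫⁻ y, ENNReal.ofReal (‖F y‖ ^ 2 / (1 + ∑ i, ‖S.ev y (S.w i)‖ ^ 2) ^ K) ∂S.dom.μ ≠ ⊤) :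
    ∃ a, ∀ y, F y = S.ev y a := by
  classical
  obtain ⟨h, a, b, hh, e⟩ := S.exists_h
  have h1 : ∀ j : ℕ, ∃ P : B n, ∀ v, MvPolynomial.eval v h ≠ 0 →
      ∑ᶠ y ∈ S.p ⁻¹' {v}, F y * S.ev y (ev2 S.z S.U (S.G ^ ⌈K⌉₊ * X ^ j)) = MvPolynomial.eval v P := fun j => by
    obtain ⟨c, hc⟩ := S.alg_L2 hi j
    obtain ⟨P, -, hP⟩ := S.fib_poly hn hh e (hol_mul hF (S.hol _)) c hc
    exact ⟨P, hP⟩
  choose P hP using h1
  obtain ⟨r, hr⟩ := S.sep.exists_right_inv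
  refine ⟨ev2 S.z S.U (∑ k ∈ Finset.range (S.Q.natDegree + 1), C (S.Q.coeff k) *
    ∑ i ∈ Finset.range k, X ^ i * C (P (k - 1 - i))) * S.v ^ ⌈K⌉₊ * r, ?_⟩
  refine congrFun (Continuous.ext_on ((dense_ne hh).preimage S.loc.isOpenMap) (hol_cont hF) (hol_cont (S.hol _)) ?_)
  intro y hy
  have hf : (S.p ⁻¹' {S.p y}).Finite := finite_of_encard_le_coe (S.fib_le _)
  have hy' : y ∈ hf.toFinset := hf.mem_toFinset.2 rfl
  have hroot : ∀ y' ∈ hf.toFinset, (S.Q.map (MvPolynomial.eval (S.p y))).eval y'.1.2 = 0 := fun y' hy' => by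
    have e1 : S.p y' = S.p y := hf.mem_toFinset.1 hy'
    rw [← e1, ← ev2_eq_eval]
    exact y'.2.1
  have h2 : ev2 y.1.1 y.1.2 (∑ k ∈ Finset.range (S.Q.natDegree + 1), C (S.Q.coeff k) *
      ∑ i ∈ Finset.range k, X ^ i * C (P (k - 1 - i))) =
      F y * ev2 y.1.1 y.1.2 S.G ^ ⌈K⌉₊ * ev2 y.1.1 y.1.2 (derivative S.Q) := by
    have a1 : ∀ j, MvPolynomial.aeval y.1.1 (P j) =
        ∑ y' ∈ hf.toFinset, F y' * ev2 y'.1.1 y'.1.2 S.G ^ ⌈K⌉₊ * y'.1.2 ^ j := fun j => by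
      refine (hP j _ hy).symm.trans ?_
      rw [finsum_mem_eq_finite_toFinset_sum _ hf]
      refine Finset.sum_congr rfl fun y' _ => ?_
      rw [S.ev_ev2, map_mul, map_pow, map_pow, ev2_X, mul_assoc]
    have a2 : ∀ y' ∈ hf.toFinset, ∑ k ∈ Finset.range (S.Q.natDegree + 1), MvPolynomial.aeval y.1.1 (S.Q.coeff k) *
        ∑ i ∈ Finset.range k, y.1.2 ^ i * y'.1.2 ^ (k - 1 - i) =
        if y = y' then ev2 y.1.1 y.1.2 (derivative S.Q) else 0 := fun y' hy'' => by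
      have := div_diff (S.Q.map (MvPolynomial.eval (S.p y))) (N := S.Q.natDegree + 1)
        (by rw [S.monic.natDegree_map]; exact Nat.lt_succ_self _) (hroot y hy') (hroot y' hy'')
      simp only [coeff_map] at this
      refine this.trans ?_
      rw [derivative_map, ← ev2_eq_eval]
      refine if_congr ⟨fun h => ?_, fun h => by rw [h]⟩ rfl rfl
      exact (S.fib_maps _).2 (hf.mem_toFinset.1 hy') (hf.mem_toFinset.1 hy'') h
    simp only [map_sum, map_mul, map_pow, ev2_C, ev2_X, a1]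
    calc _ = ∑ y' ∈ hf.toFinset, F y' * ev2 y'.1.1 y'.1.2 S.G ^ ⌈K⌉₊ *
          ∑ k ∈ Finset.range (S.Q.natDegree + 1), MvPolynomial.aeval y.1.1 (S.Q.coeff k) *
            ∑ i ∈ Finset.range k, y.1.2 ^ i * y'.1.2 ^ (k - 1 - i) := by
          simp only [Finset.mul_sum]
          rw [Finset.sum_comm]
          refine Finset.sum_congr rfl fun k _ => ?_
          rw [Finset.sum_comm]
          exact Finset.sum_congr rfl fun y' _ => Finset.sum_congr rfl fun i _ => by ring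
      _ = _ := by
          rw [Finset.sum_congr rfl fun y' hy'' => by rw [a2 y' hy'']]
          simp only [mul_ite, mul_zero]
          rw [Finset.sum_ite_eq, if_pos hy']
  have h3 := congrArg (S.ev y) hr
  rw [map_mul, map_one, S.ev_ev2] at h3
  have h4 : ev2 y.1.1 y.1.2 S.G ^ ⌈K⌉₊ * (ev2 y.1.1 y.1.2 S.G)⁻¹ ^ ⌈K⌉₊ = 1 := by
    rw [← mul_pow, mul_inv_cancel₀ y.2.2, one_pow]
  simp only [map_mul, map_pow, S.ev_v]
  rw [S.ev_ev2, h2]
  linear_combination (-F y) * h4 - (F y * ev2 y.1.1 y.1.2 S.G ^ ⌈K⌉₊ * (ev2 y.1.1 y.1.2 S.G)⁻¹ ^ ⌈K⌉₊) * h3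

theorem tr (hn : 1 ≤ n) (φ : A) (c : ℕ)
    (hi : ∫⁻ y, ENNReal.ofReal (‖S.ev y φ‖ ^ 2 / nw (S.p y) ^ c) ∂S.dom.μ ≠ ⊤) :
    ∃ P : B n, (P = 0 ∨ P.totalDegree + n + 1 ≤ c) ∧ ∃ (h : B n) (f : (B n)[X]), h ≠ 0 ∧
      φ * MvPolynomial.aeval S.z h = ev2 S.z S.U f ∧ trQ S.Q f = h * P := by
  obtain ⟨h, a, b, hh, e⟩ := S.exists_h
  obtain ⟨P, hP, h1⟩ := S.fib_poly hn hh e (S.hol φ) c hi
  obtain ⟨q, m, hq⟩ := S.surj φ
  have h2 : S.v * MvPolynomial.aeval S.z h = ev2 S.z S.U a := by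
    have := congrArg (ev2 S.z S.U) e
    rw [ev2_C, map_add, map_mul, map_mul, S.root] at this
    rw [this]
    linear_combination ev2 S.z S.U a * S.vG
  have h3 : φ * MvPolynomial.aeval S.z (h ^ m) = ev2 S.z S.U (q * a ^ m) := by
    rw [hq, map_pow, map_mul, map_pow, ← h2, mul_pow, mul_assoc]
  refine ⟨P, hP, h ^ m, q * a ^ m, pow_ne_zero _ hh, h3, mul_left_cancel₀ hh (MvPolynomial.funext fun v => ?_)⟩
  rw [map_mul, map_mul]
  by_cases hv : MvPolynomial.eval v h = 0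
  · rw [hv, zero_mul, zero_mul]
  · congr 1
    have hf : (S.p ⁻¹' {v}).Finite := finite_of_encard_le_coe (S.fib_le _)
    rw [← fib_tr e hv, map_mul (MvPolynomial.eval v), ← h1 v hv, finsum_mem_eq_finite_toFinset_sum _ hf,
      finsum_mem_eq_finite_toFinset_sum _ hf, Finset.mul_sum]
    refine Finset.sum_congr rfl fun y hy => ?_
    obtain rfl : S.p y = v := hf.mem_toFinset.1 hy
    rw [← h3, map_mul, S.ev_aeval, mul_comm]

/-- the affine variety -/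
def aff (hn : 1 ≤ n) : Aff n S.Pt A where
  toDom := S.dom
  ev := S.ev
  ev_bij := S.ev_bij
  hol := S.hol
  z := S.z
  p_eq := fun y i => (S.ev_z y i).symm
  etale := S.etale
  N := n + 2
  w := S.w
  gen := S.gen_w
  z_mem := S.z_mem_w
  emb := S.emb
  fib := ⟨_, S.fib_le⟩
  alg := S.alg hn

end SE

end Crest.Agent.R271.T1
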