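import Crest.Agent.R271.Defs

/-!
# Row 271, block T1: definitions (FROZEN, owner helper98)

`SE n A` is a standard étale presentation `A = ℂ[z][X] / (Q) [1 / G]`.  Its complex points `S.Pt` form a Riemann domain
over `ℂⁿ`.  Over `{h ≠ 0}` (`h ∈ (G, Q)`) the fibres are the roots of `Q`; fibre sums of holomorphic functions are
holomorphic there, and polynomials if they are square integrable against `(1 + |v|²)^(-c)` (slice along complex lines).
-/

set_option autoImplicit false
set_option linter.unusedSectionVars false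
set_option linter.unusedVariables false

open MeasureTheory Filter Topology Set Polynomial
open scoped ENNReal

noncomputable section

namespace Crest.Agent.R271.T1

/-- polynomials in `n` variables -/
abbrev B (n : ℕ) : Type := MvPolynomial (Fin n) ℂ

/-- evaluation of a polynomial in `(z, X)` -/
def ev2 {n : ℕ} {S : Type} [CommRing S] [Algebra ℂ S] (x : Fin n → S) (u : S) : (B n)[X] →+* S :=
  Polynomial.eval₂RingHom (MvPolynomial.aeval x : B n →ₐ[ℂ] S).toRingHom u

/-- the trace of `a` in `R[X] / (Q)` -/
def trQ {R : Type} [CommRing R] (Q a : R[X]) : R :=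
  ∑ i ∈ Finset.range Q.natDegree, ((a * X ^ i) %ₘ Q).coeff i

/-- `1 + |v|²` -/
def nw {n : ℕ} (v : E n) : ℝ := 1 + ∑ i, ‖v i‖ ^ 2

/-- a standard étale presentation -/
structure SE (n : ℕ) (A : Type) [CommRing A] [Algebra ℂ A] where
  z : Fin n → A
  U : A
  v : A
  Q : (B n)[X]
  G : (B n)[X]
  monic : Q.Monic
  root : ev2 z U Q = 0
  vG : v * ev2 z U G = 1
  ker : ∀ a, ev2 z U a = 0 → Q ∣ a
  sep : IsUnit (ev2 z U (derivative Q))
  gen : Algebra.adjoin ℂ (insert v (insert U (range z))) = ⊤

namespace SE
variable {n : ℕ} {A : Type} [CommRing A] [Algebra ℂ A] (S : SE n A)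

/-- the complex points -/
abbrev Pt : Type := {q : E n × ℂ // ev2 q.1 q.2 S.Q = 0 ∧ ev2 q.1 q.2 S.G ≠ 0}

/-- the projection -/
def p (y : S.Pt) : E n := y.1.1

/-- the generators -/
def w : Fin (n + 2) → A := Fin.cons S.v (Fin.cons S.U S.z)

end SE

end Crest.Agent.R271.T1
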