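import Crest.Agent.R271.T1.Defs

/-! # Row 271, T1: calculus on a Riemann domain, fibre sums -/

set_option autoImplicit false
set_option linter.unusedSectionVars false
set_option linter.unusedVariables false

open MeasureTheory Filter Topology Set Polynomial
open scoped ENNReal

noncomputable section

namespace Crest.Agent.R271.T1

variable {n : ℕ} {M : Type} [TopologicalSpace M] [MeasurableSpace M] (D : Dom n M)

theorem ch_coe (y : M) : ⇑(D.ch y) = D.p := by
  exact (D.loc y).choose_spec.2.symm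

theorem ch_mem (y : M) : y ∈ (D.ch y).source := by
  exact (D.loc y).choose_spec.1

theorem ch_symm_p (y : M) : (D.ch y).symm (D.p y) = y := by
  rw [← ch_coe D y]
  exact (D.ch y).left_inv (ch_mem D y)

theorem ch_symm_cont (y : M) : ContinuousAt (D.ch y).symm (D.p y) := by
  rw [← ch_coe D y]
  exact (D.ch y).continuousAt_symm ((D.ch y).map_source (ch_mem D y))

theorem p_ch_symm (y : M) : ∀ᶠ x in 𝓝 (D.p y), D.p ((D.ch y).symm x) = x := by
  have h : (D.ch y).target ∈ 𝓝 (D.p y) := by
    rw [← ch_coe D y]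
    exact (D.ch y).open_target.mem_nhds ((D.ch y).map_source (ch_mem D y))
  filter_upwards [h] with x hx
  rw [← ch_coe D y]
  exact (D.ch y).right_inv hx

/-- local sections through `y` agree -/
theorem ch_symm_eq {y : M} {σ : E n → M} (hc : ContinuousAt σ (D.p y)) (h0 : σ (D.p y) = y)
    (h : ∀ᶠ x in 𝓝 (D.p y), D.p (σ x) = x) : ⇑(D.ch y).symm =ᶠ[𝓝 (D.p y)] σ := by
  have h1 : ∀ᶠ x in 𝓝 (D.p y), σ x ∈ (D.ch y).source :=
    hc.eventually_mem (by rw [h0]; exact (D.ch y).open_source.mem_nhds (ch_mem D y))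
  filter_upwards [h, h1] with x hx hx'
  have := (D.ch y).left_inv hx'
  rwa [ch_coe D y, hx] at this

variable {D}

/-- `F = (F ∘ ch.symm) ∘ p` near `y` -/
theorem hol_cont {F : M → ℂ} (h : D.Hol F) : Continuous F := by
  refine continuous_iff_continuousAt.2 fun y => ?_
  have h1 : ContinuousAt (fun y' => (F ∘ (D.ch y).symm) (D.p y')) y :=
    (h y trivial).continuousAt.comp D.loc.continuous.continuousAt
  refine h1.congr ?_
  filter_upwards [(D.ch y).open_source.mem_nhds (ch_mem D y)] with y' hy'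
  have := (D.ch y).left_inv hy'
  rw [ch_coe D y] at this
  simp [this]

theorem hol_mul {F G : M → ℂ} (h : D.Hol F) (h' : D.Hol G) : D.Hol fun y => F y * G y := by
  exact fun y _ => (h y trivial).mul (h' y trivial)

/-- apply `ch_symm_eq` at the points `(ch y).symm x` with `σ = (ch y).symm` -/
theorem hol_ev {F : M → ℂ} (h : D.Hol F) (y : M) :
    ∀ᶠ x in 𝓝 (D.p y), DifferentiableAt ℂ (F ∘ (D.ch y).symm) x := by
  have h0 : (D.ch y).target ∈ 𝓝 (D.p y) := by
    rw [← ch_coe D y]
    exact (D.ch y).open_target.mem_nhds ((D.ch y).map_source (ch_mem D y))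
  filter_upwards [h0] with x hx
  have h1 : ∀ x ∈ (D.ch y).target, D.p ((D.ch y).symm x) = x := fun x hx => by
    rw [← ch_coe D y]
    exact (D.ch y).right_inv hx
  have h2 := ch_symm_eq D (y := (D.ch y).symm x) (σ := (D.ch y).symm)
    (by rw [h1 x hx]; exact (D.ch y).continuousAt_symm hx) (by rw [h1 x hx])
    (by rw [h1 x hx]; exact Filter.mem_of_superset ((D.ch y).open_target.mem_nhds hx) h1)
  have h3 := h ((D.ch y).symm x) trivial
  rw [h1 x hx] at h2 h3
  exact h3.congr_of_eventuallyEq (h2.symm.fun_comp F)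

/-- Near `v` the sections `(ch y).symm` through the `d` points `y` of the fibre over `v` stay distinct (`T2`), so they
exhaust the fibre. -/
theorem fib_diff [T2Space M] {W : Set (E n)} (hW : IsOpen W) {d : ℕ} (hd : ∀ v ∈ W, (D.p ⁻¹' {v}).encard = d)
    {F : M → ℂ} (hF : D.Hol F) {v : E n} (hv : v ∈ W) :
    DifferentiableAt ℂ (fun x => ∑ᶠ y ∈ D.p ⁻¹' {x}, F y) v := by
  classical
  have hf : (D.p ⁻¹' {v}).Finite := finite_of_encard_eq_coe (hd v hv)
  set s := hf.toFinset with hs
  have hs' : ∀ y ∈ s, D.p y = v := fun y hy => hf.mem_toFinset.1 hy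
  have hcard : s.card = d := by
    have := hd v hv
    rw [hf.encard_eq_coe_toFinset_card] at this
    exact_mod_cast this
  have h1 : ∀ᶠ x in 𝓝 v, ∀ y ∈ s, D.p ((D.ch y).symm x) = x :=
    (eventually_all_finset s).2 fun y hy => hs' y hy ▸ p_ch_symm D y
  have h2 : ∀ᶠ x in 𝓝 v, ∀ y ∈ s, ∀ y' ∈ s, y ≠ y' → (D.ch y).symm x ≠ (D.ch y').symm x := by
    refine (eventually_all_finset s).2 fun y hy => (eventually_all_finset s).2 fun y' hy' => ?_
    by_cases hne : y = y'
    · exact Eventually.of_forall fun _ h => absurd hne h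
    · have c1 := ch_symm_cont D y
      have c2 := ch_symm_cont D y'
      have e1 := ch_symm_p D y
      have e2 := ch_symm_p D y'
      rw [hs' y hy] at c1 e1
      rw [hs' y' hy'] at c2 e2
      have := (c1.prodMk c2).eventually_mem (isClosed_diagonal.isOpen_compl.mem_nhds
        (show ((D.ch y).symm v, (D.ch y').symm v) ∈ (diagonal M)ᶜ by rw [e1, e2]; exact hne))
      exact this.mono fun x hx _ => hx
  have h3 : (fun x => ∑ᶠ y ∈ D.p ⁻¹' {x}, F y) =ᶠ[𝓝 v] fun x => ∑ y ∈ s, (F ∘ (D.ch y).symm) x := by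
    filter_upwards [h1, h2, hW.mem_nhds hv] with x a1 a2 a3
    have inj : InjOn (fun y => (D.ch y).symm x) s := fun y hy y' hy' e => by
      by_contra hne
      exact a2 y hy y' hy' hne e
    have e : ((s.image fun y => (D.ch y).symm x : Finset M) : Set M) = D.p ⁻¹' {x} := by
      refine (finite_of_encard_eq_coe (hd x a3)).eq_of_subset_of_encard_le' ?_ ?_
      · intro y' hy'
        obtain ⟨y, hy, rfl⟩ := Finset.mem_image.1 hy'
        exact a1 y hy
      · rw [hd x a3, encard_coe_eq_coe_finsetCard, Finset.card_image_of_injOn inj, hcard]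
    rw [← e, finsum_mem_coe_finset, Finset.sum_image inj]
    rfl
  refine DifferentiableAt.congr_of_eventuallyEq ?_ h3
  exact DifferentiableAt.fun_sum fun y hy => hs' y hy ▸ hF y trivial

end Crest.Agent.R271.T1
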