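import Crest.Agent.R271.T1.Core
import Crest.Agent.R271.T1.Bridge

/-! # Row 271, block T1.  Analytic model of Spec A; traces. See `Crest/Agent/R271/Blueprint.lean`, section T1. -/

set_option autoImplicit false

namespace Crest.Agent.R271

open T1 Set

theorem stT1 (hH : HB) : StT1 := by
  intro n K _ _ g hn
  obtain ⟨S, hz, hU, htr⟩ := exists_SE g
  refine ⟨S.Pt, inferInstance, inferInstance, inferInstance, inferInstance, inferInstance, S.aff hn, hz,
    fun φ c hi => ?_⟩
  have e : ∀ y, (1 + ∑ i, (S.aff hn).sq ((S.aff hn).z i) y) = nw (S.p y) := fun y => by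
    simp only [nw, Aff.sq, ← S.ev_z]
    rfl
  simp only [e] at hi
  obtain ⟨P, hP, h, f, hh, h1, h2⟩ := S.tr hn φ c hi
  refine ⟨P, hP, ?_⟩
  have hzv : (fun i => g.A.val (S.z i)) = g.z := by rw [hz]; rfl
  have h3 : (φ : K) * MvPolynomial.aeval g.z h = ev2 g.z g.U f := by
    have := congrArg g.A.val h1
    rw [map_mul, map_ev2, hzv, ← AlgHom.comp_apply, MvPolynomial.comp_aeval, hzv] at this
    exact hU ▸ this
  have h4 : MvPolynomial.aeval g.z h ≠ 0 := fun h0 => hh (g.indep (by rw [map_zero]; exact h0))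
  have h5 : MvPolynomial.aeval g.z h ∈ IntermediateField.adjoin ℂ (range g.z) :=
    IntermediateField.algebra_adjoin_le_adjoin _ _ (by
      rw [Algebra.adjoin_range_eq_range_aeval]; exact ⟨h, rfl⟩)
  have h6 := htr f
  rw [← h3, h2, mul_comm (φ : K),
    show MvPolynomial.aeval g.z h * (φ : K) = (⟨_, h5⟩ : IntermediateField.adjoin ℂ (range g.z)) • (φ : K) from rfl,
    map_smul, smul_eq_mul, IntermediateField.coe_mul, map_mul] at h6
  exact mul_left_cancel₀ h4 h6

end Crest.Agent.R271
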