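import Crest.Agent.R271.T1.Dom

/-! # Row 271, T1: the measure of a Riemann domain -/

set_option autoImplicit false
set_option linter.unusedSectionVars false
set_option linter.unusedVariables false

open MeasureTheory Filter Topology Set Polynomial
open scoped ENNReal

noncomputable section

namespace Crest.Agent.R271.T1

variable {n : ℕ} {M : Type} [TopologicalSpace M] [SecondCountableTopology M] [MeasurableSpace M] [BorelSpace M]

/-- countably many charts and a subordinate measurable partition (Lindelöf, `disjointed`; some `s i` may be empty; if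
`M` is empty the index type is empty) -/
theorem exists_part {p : M → E n} (hp : IsLocalHomeomorph p) :
    ∃ (ι : Type) (_ : Countable ι) (e : ι → OpenPartialHomeomorph M (E n)) (s : ι → Set M),
      (∀ i, ⇑(e i) = p) ∧ (∀ i, MeasurableSet (s i)) ∧ (∀ i, s i ⊆ (e i).source) ∧
      Pairwise (Function.onFun Disjoint s) ∧ ⋃ i, s i = univ := by
  classical
  choose e he hep using hp
  obtain ⟨T, hTc, hT⟩ := TopologicalSpace.isOpen_iUnion_countable (fun y => (e y).source)
    fun y => (e y).open_source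
  have hU : ⋃ y ∈ T, (e y).source = univ := by
    rw [hT]; exact eq_univ_of_forall fun y => mem_iUnion.2 ⟨y, he y⟩
  haveI : Countable T := hTc.to_subtype
  obtain ⟨r, hr⟩ := exists_injective_nat T
  refine ⟨T, inferInstance, fun i => e i,
    fun i => (e i).source \ ⋃ j : {j : T // r j < r i}, (e j.1).source, fun i => (hep i).symm,
    fun i => (e i).open_source.measurableSet.diff
      (MeasurableSet.iUnion fun j => (e j.1).open_source.measurableSet),
    fun i => diff_subset, fun i j hij => ?_, eq_univ_of_forall fun y => ?_⟩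
  · rcases lt_or_gt_of_ne (fun h => hij (hr h)) with h | h
    · exact Set.disjoint_left.2 fun y hi hj => hj.2 (mem_iUnion.2 ⟨⟨i, h⟩, hi.1⟩)
    · exact Set.disjoint_left.2 fun y hi hj => hi.2 (mem_iUnion.2 ⟨⟨j, h⟩, hj.1⟩)
  · have hy : ∃ k, ∃ i : T, r i = k ∧ y ∈ (e i).source := by
      have : y ∈ ⋃ y ∈ T, (e y).source := hU ▸ mem_univ y
      obtain ⟨i, hi, hy⟩ := mem_iUnion₂.1 this
      exact ⟨_, ⟨i, hi⟩, rfl, hy⟩
    obtain ⟨i, hi, hyi⟩ := Nat.find_spec hy
    refine mem_iUnion.2 ⟨i, hyi, fun h => ?_⟩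
    obtain ⟨j, hj⟩ := mem_iUnion.1 h
    exact Nat.find_min hy (hi ▸ j.2) ⟨j.1, rfl, hj⟩

theorem meas_img (e : OpenPartialHomeomorph M (E n)) {A : Set M} (hA : MeasurableSet A) :
    MeasurableSet (e.target ∩ e.symm ⁻¹' A) := by
  have h := (e.continuousOn_symm.restrict.measurable hA)
  have h2 := e.open_target.measurableSet.subtype_image h
  convert h2 using 1
  ext v
  constructor
  · rintro ⟨h1, h2⟩; exact ⟨⟨v, h1⟩, h2, rfl⟩
  · rintro ⟨⟨v, h1⟩, h2, rfl⟩; exact ⟨h1, h2⟩

/-- `μ = sum_i (volume.restrict (p '' s i)).map (e i).symm` (a.e. measurable), or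
`sum_i ((volume.comap (p ∘ val : s i → E n)).map val)` with the measurable embeddings `p ∘ val`.  For a chart `e` and a
measurable `T`: `μ (e.source ∩ p ⁻¹' T) = ∑ volume (p '' (s i ∩ e.source) ∩ T)`, and these sets partition `e.target ∩ T`. -/
theorem exists_meas {p : M → E n} (hp : IsLocalHomeomorph p) :
    ∃ μ : Measure M, ∀ e : OpenPartialHomeomorph M (E n), (∀ y ∈ e.source, e y = p y) →
      (μ.restrict e.source).map p = volume.restrict e.target := by
  obtain ⟨ι, _, c, s, hc, hs, hsc, hd, hU⟩ := exists_part hp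
  refine ⟨Measure.sum fun i =>
    (volume.restrict ((c i).target ∩ (c i).symm ⁻¹' s i)).map (c i).symm, fun e he => ?_⟩
  ext T hT
  have hpm : Measurable p := hp.continuous.measurable
  have hm : MeasurableSet (p ⁻¹' T ∩ e.source) := (hpm hT).inter e.open_source.measurableSet
  rw [Measure.map_apply hpm hT, Measure.restrict_apply (hpm hT), Measure.sum_apply _ hm,
    Measure.restrict_apply hT]
  have h1 : ∀ i, ((volume.restrict ((c i).target ∩ (c i).symm ⁻¹' s i)).map (c i).symm)
      (p ⁻¹' T ∩ e.source) = volume (T ∩ (e.target ∩ e.symm ⁻¹' s i)) := by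
    intro i
    rw [Measure.map_apply_of_aemeasurable
      (((c i).continuousOn_symm.mono inter_subset_left).aemeasurable (meas_img _ (hs i))) hm,
      Measure.restrict_apply' (meas_img _ (hs i))]
    congr 1
    ext v
    constructor
    · rintro ⟨⟨h1, h2⟩, h3, h4⟩
      have h5 : p ((c i).symm v) = v := by rw [← hc i]; exact (c i).right_inv h3
      have h6 : e ((c i).symm v) = v := (he _ h2).trans h5
      refine ⟨h5 ▸ h1, h6 ▸ e.map_source h2, ?_⟩
      rw [mem_preimage, ← h6, e.left_inv h2]; exact h4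
    · rintro ⟨h1, h2, h3⟩
      have h4 := e.map_target h2
      have h5 : p (e.symm v) = v := (he _ h4).symm.trans (e.right_inv h2)
      have h6 : c i (e.symm v) = v := by rw [hc i]; exact h5
      have h7 : (c i).symm v = e.symm v := by
        conv_lhs => rw [← h6]
        exact (c i).left_inv (hsc i h3)
      refine ⟨?_, h6 ▸ (c i).map_source (hsc i h3), ?_⟩
      · rw [mem_preimage, h7]; exact ⟨by rw [mem_preimage, h5]; exact h1, h4⟩
      · rw [mem_preimage, h7]; exact h3
  simp only [h1]
  rw [← measure_iUnion _ fun i => hT.inter (meas_img _ (hs i))]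
  · congr 1
    rw [← inter_iUnion, ← inter_iUnion, ← preimage_iUnion, hU, preimage_univ, inter_univ]
  · intro i j hij
    exact Set.disjoint_left.2 fun v hi hj => Set.disjoint_left.1 (hd hij) hi.2.2 hj.2.2

/-- Integration over the fibres.  With the partition of `exists_part`: `∫ f dμ = ∑ i, ∫ v, g i v` where
`g i = indicator (e i).target (indicator (s i) f ∘ (e i).symm)` is measurable (`ContinuousOn.measurable_piecewise`) and
`g i (p y) = indicator (s i) f y` on the source; `lintegral_tsum`; pointwise `∑' i, g i v = ∑' y : fibre, f y`. -/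
theorem lintegral_fib (D : Dom n M) {f : M → ℝ≥0∞} (hf : Measurable f) :
    ∫⁻ y, f y ∂D.μ = ∫⁻ v, ∑' y : (D.p ⁻¹' {v} : Set M), f y := by
  classical
  obtain ⟨ι, _, c, s, hc, hs, hsc, hd, hU⟩ := exists_part D.loc
  have hpm : Measurable D.p := D.loc.continuous.measurable
  let σ : ι → E n → M := fun i => (c i).target.piecewise (c i).symm fun _ => (c i).symm 0
  have hσ : ∀ i, Measurable (σ i) := fun i =>
    (c i).continuousOn_symm.measurable_piecewise continuousOn_const (c i).open_target.measurableSet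
  let g : ι → E n → ℝ≥0∞ := fun i => (c i).target.indicator fun v => (s i).indicator f (σ i v)
  have hg : ∀ i, Measurable (g i) := fun i =>
    ((hf.indicator (hs i)).comp (hσ i)).indicator (c i).open_target.measurableSet
  have hgp : ∀ i, ∀ y ∈ (c i).source, g i (D.p y) = (s i).indicator f y := by
    intro i y hy
    have h1 : D.p y ∈ (c i).target := by rw [← hc i]; exact (c i).map_source hy
    have h2 : σ i (D.p y) = y := by
      simp only [σ]; rw [piecewise_eq_of_mem _ _ _ h1, ← hc i]; exact (c i).left_inv hy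
    simp only [g]; rw [indicator_of_mem h1, h2]
  have h1 : ∀ i, ∫⁻ y in s i, f y ∂D.μ = ∫⁻ v, g i v := by
    intro i
    have h2 : ∫⁻ v, g i v = ∫⁻ v in (c i).target, g i v := by
      rw [← lintegral_indicator (c i).open_target.measurableSet]
      simp only [g, indicator_indicator, inter_self]
    rw [h2, ← D.hμ (c i) fun y _ => by rw [hc i], lintegral_map (hg i) hpm,
      setLIntegral_congr_fun (c i).open_source.measurableSet (hgp i), lintegral_indicator (hs i),
      Measure.restrict_restrict (hs i), inter_eq_left.2 (hsc i)]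
  rw [← setLIntegral_univ, ← hU, lintegral_iUnion hs hd]
  simp only [h1]
  rw [← lintegral_tsum fun i => (hg i).aemeasurable]
  refine lintegral_congr fun v => ?_
  have h3 : ∀ y : M, f y = ∑' i, (s i).indicator f y := by
    intro y
    obtain ⟨i, hi⟩ := mem_iUnion.1 (hU ▸ mem_univ y)
    rw [tsum_eq_single i, indicator_of_mem hi]
    intro j hj
    exact indicator_of_notMem (fun h => Set.disjoint_left.1 (hd hj) h hi) _
  rw [tsum_congr fun y : (D.p ⁻¹' {v} : Set M) => h3 y, ENNReal.tsum_comm]
  refine tsum_congr fun i => ?_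
  by_cases hv : v ∈ (c i).target
  · have h4 : D.p ((c i).symm v) = v := by rw [← hc i]; exact (c i).right_inv hv
    rw [tsum_eq_single (⟨(c i).symm v, h4⟩ : (D.p ⁻¹' {v} : Set M))]
    · rw [← hgp i _ ((c i).map_target hv), h4]
    · rintro ⟨y, hy⟩ hne
      refine indicator_of_notMem (fun h => hne (Subtype.ext ?_)) _
      have h5 : c i y = v := by rw [hc i]; exact hy
      simp only
      rw [← h5, (c i).left_inv (hsc i h)]
  · simp only [g]
    rw [indicator_of_notMem hv]
    symm
    refine ENNReal.tsum_eq_zero.2 ?_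
    rintro ⟨y, hy⟩
    refine indicator_of_notMem (fun h => hv ?_) _
    have h5 : c i y = v := by rw [hc i]; exact hy
    exact h5 ▸ (c i).map_source (hsc i h)

/-- Cauchy-Schwarz in the fibres -/
theorem lintegral_fib_le (D : Dom n M) {d : ℕ} (hd : ∀ v, (D.p ⁻¹' {v}).encard ≤ d) {F : M → ℂ} (hF : Continuous F)
    (c : ℕ) : ∫⁻ v, ENNReal.ofReal (‖∑ᶠ y ∈ D.p ⁻¹' {v}, F y‖ ^ 2 / nw v ^ c) ≤
      d * ∫⁻ y, ENNReal.ofReal (‖F y‖ ^ 2 / nw (D.p y) ^ c) ∂D.μ := by
  classical
  have hnw : ∀ v : E n, 0 < nw v := fun v => by unfold nw; positivity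
  have hnc : Continuous (nw : E n → ℝ) := by unfold nw; fun_prop
  have hm : Measurable fun y => ENNReal.ofReal (‖F y‖ ^ 2 / nw (D.p y) ^ c) :=
    ENNReal.measurable_ofReal.comp ((hF.norm.pow 2).measurable.div
      ((hnc.comp D.loc.continuous).pow c).measurable)
  rw [lintegral_fib D hm, ← lintegral_const_mul' _ _ (ENNReal.natCast_ne_top d)]
  refine lintegral_mono fun v => ?_
  have hfin : (D.p ⁻¹' {v}).Finite := finite_of_encard_le_coe (hd v)
  have hcard : (hfin.toFinset.card : ℝ) ≤ d := by
    have := hd v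
    rw [hfin.encard_eq_coe_toFinset_card] at this
    exact_mod_cast this
  have h1 : ∑' y : (D.p ⁻¹' {v} : Set M), ENNReal.ofReal (‖F y‖ ^ 2 / nw (D.p y) ^ c) =
      ENNReal.ofReal (∑ y ∈ hfin.toFinset, ‖F y‖ ^ 2 / nw v ^ c) := by
    rw [ENNReal.ofReal_sum_of_nonneg fun y _ => div_nonneg (sq_nonneg _) (pow_pos (hnw v) c).le,
      ← Finset.tsum_subtype' hfin.toFinset fun y => ENNReal.ofReal (‖F y‖ ^ 2 / nw v ^ c), hfin.coe_toFinset]
    refine tsum_congr fun y => ?_
    rw [show D.p y = v from y.2]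
  simp only
  rw [h1, finsum_mem_eq_finite_toFinset_sum _ hfin, ← ENNReal.ofReal_natCast,
    ← ENNReal.ofReal_mul (Nat.cast_nonneg d), ← Finset.sum_div, ← mul_div_assoc]
  refine ENNReal.ofReal_le_ofReal (div_le_div_of_nonneg_right ?_ (pow_pos (hnw v) c).le)
  calc ‖∑ y ∈ hfin.toFinset, F y‖ ^ 2 ≤ (∑ y ∈ hfin.toFinset, ‖F y‖) ^ 2 :=
        pow_le_pow_left₀ (norm_nonneg _) (norm_sum_le _ _) 2
    _ ≤ hfin.toFinset.card * ∑ y ∈ hfin.toFinset, ‖F y‖ ^ 2 := sq_sum_le_card_mul_sum_sq
    _ ≤ _ := mul_le_mul_of_nonneg_right hcard (Finset.sum_nonneg fun _ _ => sq_nonneg _)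

end Crest.Agent.R271.T1
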