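import Crest.Agent.R271.T1.Defs
import Crest.Agent.R266.MeanSq
import Crest.Agent.R266.SCV1

/-! # Row 271, T1: square integrable functions of one variable -/

set_option autoImplicit false
set_option linter.unusedSectionVars false
set_option linter.unusedVariables false

open MeasureTheory Filter Topology Set Polynomial
open scoped ENNReal

noncomputable section

namespace Crest.Agent.R271.T1

/-- `R266.mean_sq` on the disc of radius `‖ζ - s‖` round `ζ` gives `π ‖ζ - s‖² ‖g ζ‖² ≤ ∫_{B(s, 2‖ζ - s‖)} ‖g‖² → 0` -/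
theorem ov_little {g : ℂ → ℂ} {s : ℂ} {r : ℝ} (hr : 0 < r) (hg : DifferentiableOn ℂ g (Metric.ball s r \ {s}))
    (hi : ∫⁻ ζ in Metric.ball s r, ENNReal.ofReal (‖g ζ‖ ^ 2) ≠ ⊤) :
    (fun ζ => g ζ - g s) =o[𝓝[≠] s] fun ζ => (ζ - s)⁻¹ := by
  have h1 : Tendsto (fun ζ => ∫⁻ x in Metric.ball ζ ‖ζ - s‖, ENNReal.ofReal (‖g x‖ ^ 2)
      ∂(volume.restrict (Metric.ball s r))) (𝓝[≠] s) (𝓝 0) := by
    refine tendsto_setLIntegral_zero hi ?_
    have h0 : Continuous fun ζ : ℂ => ENNReal.ofReal (‖ζ - s‖ ^ 2 * Real.pi) :=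
      ENNReal.continuous_ofReal.comp (by fun_prop)
    have h1 := (h0.tendsto s).mono_left (nhdsWithin_le_nhds (s := {s}ᶜ))
    rw [sub_self, norm_zero, zero_pow two_ne_zero, zero_mul, ENNReal.ofReal_zero] at h1
    refine tendsto_of_tendsto_of_tendsto_of_le_of_le tendsto_const_nhds h1 (fun _ => zero_le) fun ζ => ?_
    refine (Measure.restrict_apply_le _ _).trans (le_of_eq ?_)
    rw [Complex.volume_ball, ENNReal.ofReal_mul (by positivity), ENNReal.ofReal_pow (norm_nonneg _),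
      ← NNReal.coe_real_pi, ENNReal.ofReal_coe_nnreal]
  have h2 : Tendsto (fun ζ => ENNReal.ofReal (Real.pi * ‖ζ - s‖ ^ 2 * ‖g ζ‖ ^ 2)) (𝓝[≠] s) (𝓝 0) := by
    refine tendsto_of_tendsto_of_tendsto_of_le_of_le' tendsto_const_nhds h1
      (Eventually.of_forall fun _ => zero_le) ?_
    filter_upwards [self_mem_nhdsWithin, mem_nhdsWithin_of_mem_nhds (Metric.ball_mem_nhds s (half_pos hr))]
      with ζ h0 h1
    have hsub : Metric.ball ζ ‖ζ - s‖ ⊆ Metric.ball s r \ {s} := by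
      intro x hx
      rw [Metric.mem_ball, dist_eq_norm] at h1
      refine ⟨?_, fun h => ?_⟩
      · have := dist_triangle x ζ s
        rw [Metric.mem_ball] at hx ⊢
        rw [dist_eq_norm ζ s] at this
        linarith
      · rw [mem_singleton_iff.1 h, Metric.mem_ball, dist_comm, dist_eq_norm] at hx
        exact lt_irrefl _ hx
    rw [Measure.restrict_restrict measurableSet_ball, inter_eq_left.2 (hsub.trans sdiff_subset)]
    exact R266.mean_sq (norm_pos_iff.2 (sub_ne_zero.2 h0)) (hg.mono hsub)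
  have h3 : Tendsto (fun ζ => (ζ - s) * g ζ) (𝓝[≠] s) (𝓝 0) := by
    have := (((ENNReal.tendsto_toReal ENNReal.zero_ne_top).comp h2).const_mul Real.pi⁻¹).sqrt
    rw [ENNReal.toReal_zero, mul_zero, Real.sqrt_zero] at this
    refine tendsto_zero_iff_norm_tendsto_zero.2 (this.congr fun ζ => ?_)
    have hπ := Real.pi_pos
    rw [Function.comp, ENNReal.toReal_ofReal (by positivity), mul_assoc, inv_mul_cancel_left₀ hπ.ne', ← mul_pow,
      ← norm_mul, Real.sqrt_sq (norm_nonneg _)]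
  have h4 : Tendsto (fun ζ => (ζ - s) * g s) (𝓝[≠] s) (𝓝 0) := by
    have : Continuous fun ζ : ℂ => (ζ - s) * g s := by fun_prop
    simpa using (this.tendsto s).mono_left (nhdsWithin_le_nhds (s := {s}ᶜ))
  refine (Asymptotics.isLittleO_iff_tendsto' ?_).2 ?_
  · filter_upwards [self_mem_nhdsWithin] with ζ h0 h1
    exact absurd (inv_eq_zero.1 h1) (sub_ne_zero.2 h0)
  · have := h3.sub h4
    rw [sub_zero] at this
    refine this.congr fun ζ => ?_
    rw [div_inv_eq_mul]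
    ring

/-- Removable singularities: induction on `S` (`Complex.differentiableOn_update_limUnder_of_isLittleO`; changing `g` at a
point does not change the integrals), or `G = fun ζ => if ζ ∈ S then limUnder (𝓝[≠] ζ) g else g ζ`. -/
theorem ov_ext {S : Set ℂ} (hS : S.Finite) {g : ℂ → ℂ} (hg : ∀ ζ ∉ S, DifferentiableAt ℂ g ζ)
    (hi : ∀ R : ℝ, ∫⁻ ζ in Metric.ball 0 R, ENNReal.ofReal (‖g ζ‖ ^ 2) ≠ ⊤) :
    ∃ G : ℂ → ℂ, Differentiable ℂ G ∧ ∀ ζ ∉ S, G ζ = g ζ := by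
  induction S, hS using Set.Finite.induction_on generalizing g with
  | empty => exact ⟨g, fun ζ => hg ζ (notMem_empty ζ), fun _ _ => rfl⟩
  | @insert a S ha hS ih =>
    obtain ⟨r, hr, hb⟩ := Metric.isOpen_iff.1 hS.isClosed.isOpen_compl a ha
    have hd : DifferentiableOn ℂ g (Metric.ball a r \ {a}) := fun ζ hζ =>
      (hg ζ fun h => h.elim hζ.2 (hb hζ.1)).differentiableWithinAt
    have hl := ov_little hr hd (ne_top_of_le_ne_top (hi (‖a‖ + r)) (lintegral_mono_set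
      (Metric.ball_subset_ball' (by rw [dist_zero_right]; linarith))))
    have h1 := Complex.differentiableOn_update_limUnder_of_isLittleO (Metric.ball_mem_nhds a hr) hd hl
    set g' := Function.update g a (limUnder (𝓝[≠] a) g) with hg'
    obtain ⟨G, hG, hG'⟩ := ih (g := g') (fun ζ hζ => by
      rcases eq_or_ne ζ a with rfl | hne
      · exact h1.differentiableAt (Metric.ball_mem_nhds _ hr)
      · refine (hg ζ fun h => h.elim hne hζ).congr_of_eventuallyEq ?_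
        filter_upwards [isOpen_ne.mem_nhds hne] with x hx
        exact Function.update_of_ne hx _ _) (fun R => by
      refine ne_of_eq_of_ne (lintegral_congr_ae (ae_restrict_of_ae ?_)) (hi R)
      filter_upwards [compl_mem_ae_iff.2 (measure_singleton a)] with x hx
      rw [hg', Function.update_of_ne hx])
    refine ⟨G, hG, fun ζ hζ => (hG' ζ fun h => hζ (Or.inr h)).trans ?_⟩
    exact Function.update_of_ne (fun h => hζ (Or.inl h)) _ _

/-- Entire functions of polynomial growth: `ζ ^ m * G ζ⁻¹` is bounded near `0`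
(`Complex.differentiableOn_update_limUnder_of_bddAbove`), then `R266.growth m 0`. -/
theorem ov_growth {G : ℂ → ℂ} (hG : Differentiable ℂ G) {m : ℕ} {C : ℝ} (h : ∀ ζ, 1 ≤ ‖ζ‖ → ‖G ζ‖ ≤ C * ‖ζ‖ ^ m) :
    ∃ q : ℂ[X], q.natDegree ≤ m ∧ ∀ ζ, G ζ = q.eval ζ := by
  have hd : DifferentiableOn ℂ (fun ζ : ℂ => ζ ^ m * G ζ⁻¹) (Metric.ball 0 1 \ {0}) := fun ζ hζ =>
    ((differentiableAt_id.pow m).mul ((hG _).comp ζ (differentiableAt_inv hζ.2))).differentiableWithinAt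
  have h1 := Complex.differentiableOn_update_limUnder_of_bddAbove (Metric.ball_mem_nhds 0 one_pos) hd ⟨C, by
    rintro _ ⟨ζ, hζ, rfl⟩
    have h0 : 0 < ‖ζ‖ := norm_pos_iff.2 hζ.2
    have h1 : ‖ζ‖ < 1 := mem_ball_zero_iff.1 hζ.1
    have h2 := h ζ⁻¹ (by rw [norm_inv]; exact (one_le_inv₀ h0).2 h1.le)
    rw [norm_inv, inv_pow, ← div_eq_mul_inv, le_div_iff₀ (by positivity)] at h2
    simpa only [Function.comp, norm_mul, norm_pow, mul_comm] using h2⟩
  obtain ⟨p, hp, hp'⟩ := R266.growth m 0 hG (h1.analyticAt (Metric.ball_mem_nhds 0 one_pos)) (by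
    filter_upwards [self_mem_nhdsWithin] with ζ hζ
    rw [Function.update_of_ne hζ, pow_zero, one_mul])
  refine ⟨p, natDegree_le_iff_coeff_eq_zero.2 fun N hN => ?_, hp'⟩
  exact (degree_lt_iff_coeff_zero _ _).1 (mem_degreeLT.1 hp) N hN

/-- `ov_ext`, `R266.mean_sq` on unit discs (`1 + ‖ζ'‖² ≤ 5 ‖ζ‖²` on `ball ζ 1` if `1 ≤ ‖ζ‖`), `ov_growth` -/
theorem ov_poly {S : Set ℂ} (hS : S.Finite) {g : ℂ → ℂ} (hg : ∀ ζ ∉ S, DifferentiableAt ℂ g ζ) (m : ℕ)
    (hi : ∫⁻ ζ, ENNReal.ofReal (‖g ζ‖ ^ 2 / (1 + ‖ζ‖ ^ 2) ^ m) ≠ ⊤) :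
    ∃ q : ℂ[X], q.natDegree ≤ m ∧ ∀ ζ ∉ S, g ζ = q.eval ζ := by
  have h1 : ∀ (s : Set ℂ) (M : ℝ), MeasurableSet s → 0 ≤ M → (∀ ζ ∈ s, 1 + ‖ζ‖ ^ 2 ≤ M) →
      ∫⁻ ζ in s, ENNReal.ofReal (‖g ζ‖ ^ 2) ≤
        ENNReal.ofReal (M ^ m) * ∫⁻ ζ, ENNReal.ofReal (‖g ζ‖ ^ 2 / (1 + ‖ζ‖ ^ 2) ^ m) := by
    intro s M hs hM h
    rw [← lintegral_const_mul' _ _ ENNReal.ofReal_ne_top]
    refine le_trans (setLIntegral_mono' hs fun ζ hζ => ?_) (setLIntegral_le_lintegral _ _)
    rw [← ENNReal.ofReal_mul (by positivity)]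
    refine ENNReal.ofReal_le_ofReal ?_
    rw [← mul_div_assoc, le_div_iff₀ (by positivity), mul_comm]
    gcongr
    exact h ζ hζ
  obtain ⟨G, hG, hG'⟩ := ov_ext hS hg fun R => ne_top_of_le_ne_top (ENNReal.mul_ne_top ENNReal.ofReal_ne_top hi)
    (h1 _ (1 + R ^ 2) measurableSet_ball (by positivity) fun ζ hζ => by
      have := mem_ball_zero_iff.1 hζ
      gcongr)
  set I := ∫⁻ ζ, ENNReal.ofReal (‖g ζ‖ ^ 2 / (1 + ‖ζ‖ ^ 2) ^ m) with hI
  obtain ⟨q, hq, hq'⟩ := ov_growth hG (m := m) (C := √(5 ^ m * I.toReal)) fun ζ hζ => by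
    have h2 := R266.mean_sq (c := ζ) one_pos hG.differentiableOn
    have h3 : ∫⁻ x in Metric.ball ζ 1, ENNReal.ofReal (‖G x‖ ^ 2) = ∫⁻ x in Metric.ball ζ 1, ENNReal.ofReal (‖g x‖ ^ 2) := by
      refine lintegral_congr_ae (ae_restrict_of_ae ?_)
      filter_upwards [compl_mem_ae_iff.2 (hS.measure_zero volume)] with x hx
      rw [hG' x hx]
    have h4 := h1 (Metric.ball ζ 1) (5 * ‖ζ‖ ^ 2) measurableSet_ball (by positivity) fun x hx => by
      have h5 : ‖x‖ ≤ ‖ζ‖ + 1 := norm_le_of_mem_closedBall (Metric.ball_subset_closedBall hx)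
      nlinarith [norm_nonneg x]
    rw [h3] at h2
    have h5 := h2.trans h4
    rw [← ENNReal.ofReal_toReal hi, ← ENNReal.ofReal_mul (by positivity),
      ENNReal.ofReal_le_ofReal_iff (by positivity)] at h5
    refine (pow_le_pow_iff_left₀ (norm_nonneg _) (by positivity) two_ne_zero).1 ?_
    rw [mul_pow, Real.sq_sqrt (by positivity)]
    have h6 : (5 * ‖ζ‖ ^ 2) ^ m * I.toReal = 5 ^ m * I.toReal * (‖ζ‖ ^ m) ^ 2 := by ring
    nlinarith [Real.pi_gt_three, sq_nonneg ‖G ζ‖]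
  exact ⟨q, hq, fun ζ hζ => (hG' ζ hζ).symm.trans (hq' ζ)⟩

/-- write `q = X ^ j * q₁` with `q₁ 0 ≠ 0` (`exists_eq_pow_rootMultiplicity_mul_and_not_dvd`) -/
theorem poly_zero_of_bigO {q : ℂ[X]} {N : ℕ} (hq : q.natDegree ≤ N)
    (h : (fun ζ => q.eval ζ) =O[𝓝[≠] 0] fun ζ : ℂ => ‖ζ‖ ^ (N + 1)) : q = 0 := by
  have key : ∀ M : ℕ, ((fun ζ => q.eval ζ) =O[𝓝[≠] 0] fun ζ : ℂ => ‖ζ‖ ^ M) → X ^ M ∣ q := by
    intro M
    induction M with
    | zero => exact fun _ => by simp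
    | succ M ih =>
      intro h
      obtain ⟨q₁, rfl⟩ := ih (h.trans (Asymptotics.IsBigO.of_bound 1 (by
        filter_upwards [mem_nhdsWithin_of_mem_nhds (Metric.ball_mem_nhds (0 : ℂ) one_pos)] with ζ hζ
        have := mem_ball_zero_iff.1 hζ
        simp only [norm_pow, norm_norm, one_mul]
        exact pow_le_pow_of_le_one (norm_nonneg _) this.le (Nat.le_succ M))))
      rw [pow_succ]
      refine mul_dvd_mul_left _ (X_dvd_iff.2 ?_)
      obtain ⟨C, hC⟩ := h.bound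
      have h1 : Tendsto (fun ζ : ℂ => q₁.eval ζ) (𝓝[≠] 0) (𝓝 0) := by
        have h0 : Continuous fun ζ : ℂ => C * ‖ζ‖ := by fun_prop
        have h2 := (h0.tendsto 0).mono_left (nhdsWithin_le_nhds (s := {0}ᶜ))
        rw [norm_zero, mul_zero] at h2
        refine squeeze_zero_norm' ?_ h2
        filter_upwards [hC, self_mem_nhdsWithin] with ζ h1 h2
        have h3 : 0 < ‖ζ‖ ^ M := pow_pos (norm_pos_iff.2 h2) M
        simp only [eval_mul, eval_pow, eval_X, norm_mul, norm_pow, norm_norm] at h1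
        refine le_of_mul_le_mul_left (h1.trans (le_of_eq ?_)) h3
        ring
      rw [coeff_zero_eq_eval_zero]
      exact tendsto_nhds_unique ((q₁.continuous.tendsto 0).mono_left nhdsWithin_le_nhds) h1
  refine eq_zero_of_dvd_of_natDegree_lt (key _ h) ?_
  rw [natDegree_X_pow]
  exact Nat.lt_succ_of_le hq

end Crest.Agent.R271.T1
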