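import Crest.Agent.R271.T1.Alg
import Crest.Agent.R271.T1.Tr
import Crest.Agent.R271.T1.Meas

/-! # Row 271, T1: the complex points as a Riemann domain -/

set_option autoImplicit false
set_option linter.unusedSectionVars false
set_option linter.unusedVariables false

open MeasureTheory Filter Topology Set Polynomial
open scoped ENNReal

noncomputable section

namespace Crest.Agent.R271.T1

namespace SE
variable {n : ℕ} {A : Type} [CommRing A] [IsDomain A] [Algebra ℂ A] (S : SE n A)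

theorem der_ne (y : S.Pt) : ev2 y.1.1 y.1.2 (derivative S.Q) ≠ 0 := by
  rw [← S.ev_ev2]
  exact (S.sep.map (S.ev y)).ne_zero

theorem p_cont : Continuous S.p := continuous_fst.comp continuous_subtype_val

/-- implicit function theorem (`ContDiffAt.implicitFunction` with `n = ω`); `∂_u Q = Q' ≠ 0` by `sep` -/
theorem exists_root (y : S.Pt) : ∃ σ : E n → ℂ, AnalyticAt ℂ σ (S.p y) ∧ σ (S.p y) = y.1.2 ∧
    ∀ᶠ q in 𝓝 y.1, ev2 q.1 q.2 S.Q = 0 ↔ σ q.1 = q.2 := by
  have hf : ContDiffAt ℂ ⊤ (fun q : E n × ℂ => ev2 q.1 q.2 S.Q) y.1 := (ev2_analytic S.Q y.1).contDiffAt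
  have h1 : HasDerivAt (fun t => ev2 y.1.1 t S.Q) (ev2 y.1.1 y.1.2 (derivative S.Q)) y.1.2 := by
    simp only [ev2_eq_eval, ← derivative_map]
    exact Polynomial.hasDerivAt _ _
  have h2 : HasFDerivAt (fun t => ev2 y.1.1 t S.Q)
      (fderiv ℂ (fun q : E n × ℂ => ev2 q.1 q.2 S.Q) y.1 ∘L .inr ℂ (E n) ℂ) y.1.2 :=
    HasFDerivAt.comp (g := fun q : E n × ℂ => ev2 q.1 q.2 S.Q) (f := fun t => (y.1.1, t)) y.1.2
      (ev2_analytic S.Q y.1).differentiableAt.hasFDerivAt (hasFDerivAt_prodMk_right y.1.1 y.1.2)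
  have h3 : (fderiv ℂ (fun q : E n × ℂ => ev2 q.1 q.2 S.Q) y.1 ∘L .inr ℂ (E n) ℂ).IsInvertible := by
    rw [h2.unique h1.hasFDerivAt]
    have hc := S.der_ne y
    refine ContinuousLinearMap.IsInvertible.of_inverse
      (g := (ev2 y.1.1 y.1.2 (derivative S.Q))⁻¹ • ContinuousLinearMap.id ℂ ℂ) ?_ ?_ <;>
    · ext
      simp [hc]
  refine ⟨hf.implicitFunction (by simp) h3, ?_, hf.implicitFunction_apply_self _ h3, ?_⟩
  · exact (hf.contDiffAt_implicitFunction (by simp) h3).analyticAt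
  · have := hf.eventually_apply_eq_iff_implicitFunction (by simp) h3
    rwa [y.2.1] at this

/-- local sections: `τ x = if h : _ then ⟨(x, σ x), h⟩ else y` -/
theorem exists_sec (y : S.Pt) : ∃ τ : E n → S.Pt, ContinuousAt τ (S.p y) ∧ τ (S.p y) = y ∧
    (∀ᶠ x in 𝓝 (S.p y), S.p (τ x) = x) ∧ (∀ᶠ y' in 𝓝 y, τ (S.p y') = y') ∧
    AnalyticAt ℂ (fun x => (τ x).1.2) (S.p y) := by
  classical
  obtain ⟨σ, ha, h0, h⟩ := S.exists_root y
  have hc : ContinuousAt (fun x => (x, σ x)) (S.p y) := continuousAt_id.prodMk ha.continuousAt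
  have e0 : (S.p y, σ (S.p y)) = y.1 := Prod.ext rfl h0
  have h1 : ∀ᶠ x in 𝓝 (S.p y), ev2 x (σ x) S.Q = 0 ∧ ev2 x (σ x) S.G ≠ 0 := by
    have t : Tendsto (fun x => (x, σ x)) (𝓝 (S.p y)) (𝓝 y.1) := e0 ▸ hc
    filter_upwards [t.eventually h, t.eventually ((ev2_analytic S.G y.1).continuousAt.eventually_ne y.2.2)]
      with x hx hx'
    exact ⟨hx.2 rfl, hx'⟩
  let τ : E n → S.Pt := fun x =>
    if hx : ev2 x (σ x) S.Q = 0 ∧ ev2 x (σ x) S.G ≠ 0 then ⟨(x, σ x), hx⟩ else y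
  have h2 : ∀ᶠ x in 𝓝 (S.p y), (τ x).1 = (x, σ x) := h1.mono fun x hx => by simp only [τ, dif_pos hx]
  refine ⟨τ, ?_, Subtype.ext (h2.self_of_nhds.trans e0), h2.mono fun x hx => congrArg Prod.fst hx, ?_, ?_⟩
  · exact IsInducing.subtypeVal.continuousAt_iff.2 (hc.congr (h2.mono fun x hx => hx.symm))
  · filter_upwards [S.p_cont.continuousAt.eventually h2, continuous_subtype_val.continuousAt.eventually h]
      with y' a1 a2
    exact Subtype.ext (a1.trans (Prod.ext rfl (a2.1 y'.2.1)))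
  · exact ha.congr (h2.mono fun x hx => (congrArg Prod.snd hx).symm)

/-- continuous, open (`exists_sec`) and locally injective; `isLocalHomeomorph_iff_isOpenEmbedding_restrict` -/
theorem loc : IsLocalHomeomorph S.p := by
  have ho : IsOpenMap S.p := by
    refine IsOpenMap.of_nhds_le fun y => ?_
    obtain ⟨τ, hc, h0, h1, -⟩ := S.exists_sec y
    intro s hs
    have h2 : ∀ᶠ x in 𝓝 (S.p y), τ x ∈ S.p ⁻¹' s := hc.eventually_mem (by rw [h0]; exact hs)
    filter_upwards [h1, h2] with x a1 a2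
    exact a1 ▸ a2
  refine isLocalHomeomorph_iff_isOpenEmbedding_restrict.2 fun y => ?_
  obtain ⟨τ, -, -, -, h1, -⟩ := S.exists_sec y
  obtain ⟨U, hU, hUo, hy⟩ := mem_nhds_iff.1 h1
  refine ⟨U, hUo.mem_nhds hy, .of_continuous_injective_isOpenMap (S.p_cont.comp continuous_subtype_val) ?_
    (ho.comp hUo.isOpenMap_subtype_val)⟩
  intro a b hab
  refine Subtype.ext ((hU a.2).symm.trans (Eq.trans ?_ (hU b.2)))
  exact congrArg τ hab

/-- the Riemann domain -/
def dom : Dom n S.Pt where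
  p := S.p
  loc := S.loc
  μ := (exists_meas S.loc).choose
  hμ := (exists_meas S.loc).choose_spec

/-- `surj`, `ch_symm_eq`, `exists_sec` -/
theorem hol (a : A) : S.dom.Hol fun y => S.ev y a := by
  intro y _
  obtain ⟨τ, hc, h0, h1, -, h2⟩ := S.exists_sec y
  obtain ⟨b, m, rfl⟩ := S.surj a
  have e := ch_symm_eq S.dom (y := y) hc h0 h1
  have h3 : AnalyticAt ℂ (fun x => (x, (τ x).1.2)) (S.p y) := analyticAt_id.prod h2
  have h4 : ∀ c : (B n)[X], AnalyticAt ℂ (fun x => ev2 x (τ x).1.2 c) (S.p y) := fun c =>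
    AnalyticAt.comp (g := fun q : E n × ℂ => ev2 q.1 q.2 c) (f := fun x => (x, (τ x).1.2)) (ev2_analytic c _) h3
  have h5 : AnalyticAt ℂ (fun x => ev2 x (τ x).1.2 b * (ev2 x (τ x).1.2 S.G)⁻¹ ^ m) (S.p y) :=
    (h4 b).fun_mul (((h4 S.G).fun_inv (by rw [h0]; exact y.2.2)).fun_pow m)
  refine h5.differentiableAt.congr_of_eventuallyEq ?_
  filter_upwards [e, h1] with x a1 a2
  have a3 : (τ x).1.1 = x := a2
  change S.ev ((S.dom.ch y).symm x) _ = _
  rw [a1, map_mul, map_pow, S.ev_ev2, S.ev_v, a3]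

/-- continuous with the continuous left inverse... range `= {x | Q = 0, x 0 * G = 1}` -/
theorem emb : IsClosedEmbedding fun (y : S.Pt) i => S.ev y (S.w i) := by
  have hc : Continuous fun (y : S.Pt) i => S.ev y (S.w i) :=
    continuous_pi fun i => hol_cont (S.hol (S.w i))
  let g : (Fin (n + 2) → ℂ) → E n × ℂ := fun x => (fun i => x i.succ.succ, x 1)
  have hg : Continuous g := by fun_prop
  have e : g ∘ (fun (y : S.Pt) i => S.ev y (S.w i)) = Subtype.val :=
    funext fun y => Prod.ext (funext fun i => S.ev_z y i) (S.ev_U y)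
  refine ⟨IsEmbedding.of_comp hc hg (e ▸ IsEmbedding.subtypeVal), ?_⟩
  have h1 : ∀ c : (B n)[X], Continuous fun x => ev2 (g x).1 (g x).2 c := fun c =>
    (continuous_iff_continuousAt.2 fun q => (ev2_analytic c q).continuousAt).comp hg
  have e2 : range (fun (y : S.Pt) i => S.ev y (S.w i)) =
      {x | ev2 (g x).1 (g x).2 S.Q = 0} ∩ {x | x 0 * ev2 (g x).1 (g x).2 S.G = 1} := by
    ext x
    constructor
    · rintro ⟨y, rfl⟩
      have := congrFun e y
      simp only [Function.comp] at this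
      simp only [mem_inter_iff, mem_ofPred_eq, this]
      refine ⟨y.2.1, ?_⟩
      rw [show S.w 0 = S.v from rfl, S.ev_v]
      exact inv_mul_cancel₀ y.2.2
    · rintro ⟨a1, a2⟩
      refine ⟨⟨g x, a1, right_ne_zero_of_mul_eq_one a2⟩, funext fun i => ?_⟩
      refine Fin.cases ?_ (fun i => Fin.cases ?_ (fun i => ?_) i) i
      · exact (S.ev_v _).trans (eq_inv_of_mul_eq_one_left a2).symm
      · exact S.ev_U _
      · exact S.ev_z _ i
  rw [e2]
  exact (isClosed_eq (h1 _) continuous_const).inter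
    (isClosed_eq ((continuous_apply 0).mul (h1 _)) continuous_const)

theorem fib_maps (v : E n) :
    MapsTo (fun y : S.Pt => y.1.2) (S.p ⁻¹' {v}) (S.Q.map (MvPolynomial.eval v)).roots.toFinset ∧
      InjOn (fun y : S.Pt => y.1.2) (S.p ⁻¹' {v}) := by
  refine ⟨fun y hy => ?_, fun y hy y' hy' h => Subtype.ext (Prod.ext (hy.trans hy'.symm) h)⟩
  rw [Finset.mem_coe, Multiset.mem_toFinset, mem_roots (S.monic.map _).ne_zero, IsRoot.def, ← ev2_eq_eval]
  obtain rfl : S.p y = v := hy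
  exact y.2.1

theorem fib_le (v : E n) : (S.p ⁻¹' {v}).encard ≤ S.Q.natDegree := by
  rw [← (S.fib_maps v).2.encard_image]
  refine (encard_le_encard (S.fib_maps v).1.image_subset).trans ?_
  rw [encard_coe_eq_coe_finsetCard, Nat.cast_le, ← S.monic.natDegree_map (MvPolynomial.eval v)]
  exact (Multiset.toFinset_card_le _).trans (card_roots' _)

variable {S}

/-- over `{h ≠ 0}` the fibre is the set of roots -/
theorem fib_bij {h : B n} {a b : (B n)[X]} (e : C h = S.G * a + S.Q * b) {v : E n} (hv : MvPolynomial.eval v h ≠ 0) :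
    BijOn (fun y : S.Pt => y.1.2) (S.p ⁻¹' {v}) (S.Q.map (MvPolynomial.eval v)).roots.toFinset ∧
      (S.Q.map (MvPolynomial.eval v)).roots.toFinset.card = S.Q.natDegree := by
  have key : ∀ u, (S.Q.map (MvPolynomial.eval v)).eval u = 0 → ∃ y : S.Pt, y.1 = (v, u) := fun u hu => by
    rw [← ev2_eq_eval] at hu
    refine ⟨⟨(v, u), hu, fun h0 => hv ?_⟩, rfl⟩
    have := congrArg (ev2 v u) e
    rw [map_add, map_mul, map_mul, hu, show ev2 v u S.G = 0 from h0, ev2_C] at this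
    simpa using this
  refine ⟨⟨(S.fib_maps v).1, (S.fib_maps v).2, fun u hu => ?_⟩, ?_⟩
  · rw [Finset.mem_coe, Multiset.mem_toFinset, mem_roots (S.monic.map _).ne_zero] at hu
    obtain ⟨y, hy⟩ := key u hu
    exact ⟨y, congrArg Prod.fst hy, congrArg Prod.snd hy⟩
  · rw [card_roots (S.monic.map _), S.monic.natDegree_map]
    intro u hu
    obtain ⟨y, hy⟩ := key u hu
    have := S.der_ne y
    rwa [hy, ev2_eq_eval, ← derivative_map] at this

theorem fib_eq {h : B n} {a b : (B n)[X]} (e : C h = S.G * a + S.Q * b) {v : E n} (hv : MvPolynomial.eval v h ≠ 0) :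
    (S.p ⁻¹' {v}).encard = S.Q.natDegree := by
  obtain ⟨h1, h2⟩ := fib_bij e hv
  rw [← h1.injOn.encard_image, h1.image_eq, encard_coe_eq_coe_finsetCard, h2]

/-- `trQ_map`, `trQ_roots`, `fib_bij` -/
theorem fib_tr {h : B n} {a b : (B n)[X]} (e : C h = S.G * a + S.Q * b) {v : E n} (hv : MvPolynomial.eval v h ≠ 0)
    (f : (B n)[X]) : ∑ᶠ y ∈ S.p ⁻¹' {v}, S.ev y (ev2 S.z S.U f) = MvPolynomial.eval v (trQ S.Q f) := by
  obtain ⟨h1, h2⟩ := fib_bij e hv
  rw [← trQ_map (MvPolynomial.eval v) S.monic, trQ_roots (S.monic.map _) (h2.trans (S.monic.natDegree_map _).symm)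
    fun u hu => (mem_roots (S.monic.map _).ne_zero).1 (Multiset.mem_toFinset.1 hu), ← finsum_mem_coe_finset]
  refine finsum_mem_eq_of_bijOn _ h1 fun y hy => ?_
  obtain rfl : S.p y = v := hy
  rw [S.ev_ev2, ev2_eq_eval]
  rfl

end SE

end Crest.Agent.R271.T1
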